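import Mathlib

/-!
The pointwise bound of the quadratic form of the mean normal identity (E7).
-/

namespace Vale.Agent.P224.R2.H679

open Finset Real

/-- four vectors: `|<z,g>n-<n,g>z-<n,z>g| ≤ |n||z||g|`, tested with `v` -/
theorem four_abs {E : Type*} [NormedAddCommGroup E] [InnerProductSpace ℝ E] (n z g v : E) :
    |inner ℝ z g * inner ℝ n v - inner ℝ n g * inner ℝ z v - inner ℝ n z * inner ℝ g v|
      ≤ ‖n‖ * ‖z‖ * ‖g‖ * ‖v‖ := by
  set w : E := (inner ℝ z g) • n - (inner ℝ n g) • z - (inner ℝ n z) • g with hw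
  have h1 : inner ℝ w v = inner ℝ z g * inner ℝ n v - inner ℝ n g * inner ℝ z v
      - inner ℝ n z * inner ℝ g v := by
    rw [hw]
    simp only [inner_sub_left, real_inner_smul_left]
  have h2 : ‖w‖ ≤ ‖n‖ * ‖z‖ * ‖g‖ := by
    rcases eq_or_ne n 0 with hn | hn
    · have : w = 0 := by rw [hw, hn]; simp
      rw [this, hn]; simp
    have hn0 : 0 < ‖n‖ ^ 2 := by positivity
    have hnn : inner ℝ n n = ‖n‖ ^ 2 := real_inner_self_eq_norm_sq n
    have hzz : inner ℝ z z = ‖z‖ ^ 2 := real_inner_self_eq_norm_sq z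
    have hgg : inner ℝ g g = ‖g‖ ^ 2 := real_inner_self_eq_norm_sq g
    -- Gram determinant
    set A := ‖n‖ ^ 2 with hA
    set a := inner ℝ n z with ha
    set b := inner ℝ n g with hb
    set c := inner ℝ z g with hc
    have cs : (A * c - a * b) ^ 2 ≤ (A * ‖z‖ ^ 2 - a ^ 2) * (A * ‖g‖ ^ 2 - b ^ 2) := by
      have k1 : inner ℝ (A • z - a • n) (A • g - b • n) = A * (A * c - a * b) := by
        simp only [inner_sub_left, inner_sub_right, real_inner_smul_left, real_inner_smul_right,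
          hnn, real_inner_comm n z]
        simp only [← ha, ← hb, ← hc]
        ring
      have k2 : inner ℝ (A • z - a • n) (A • z - a • n) = A * (A * ‖z‖ ^ 2 - a ^ 2) := by
        simp only [inner_sub_left, inner_sub_right, real_inner_smul_left, real_inner_smul_right,
          hnn, hzz, real_inner_comm n z]
        simp only [← ha]
        ring
      have k3 : inner ℝ (A • g - b • n) (A • g - b • n) = A * (A * ‖g‖ ^ 2 - b ^ 2) := by
        simp only [inner_sub_left, inner_sub_right, real_inner_smul_left, real_inner_smul_right,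
          hnn, hgg, real_inner_comm n g]
        simp only [← hb]
        ring
      have k4 := real_inner_mul_inner_self_le (A • z - a • n) (A • g - b • n)
      rw [k1, k2, k3] at k4
      have k5 : A ^ 2 * (A * c - a * b) ^ 2
          ≤ A ^ 2 * ((A * ‖z‖ ^ 2 - a ^ 2) * (A * ‖g‖ ^ 2 - b ^ 2)) := by
        nlinarith [k4]
      exact le_of_mul_le_mul_left k5 (by positivity)
    have nw : ‖w‖ ^ 2 = c ^ 2 * A + b ^ 2 * ‖z‖ ^ 2 + a ^ 2 * ‖g‖ ^ 2 - 2 * (a * b * c) := by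
      rw [← real_inner_self_eq_norm_sq w, hw]
      simp only [inner_sub_left, inner_sub_right, real_inner_smul_left, real_inner_smul_right,
        hnn, hzz, hgg, real_inner_comm n z, real_inner_comm n g, real_inner_comm z g]
      simp only [← ha, ← hb, ← hc]
      ring
    have key : A * ‖w‖ ^ 2 ≤ A * (‖n‖ * ‖z‖ * ‖g‖) ^ 2 := by
      rw [nw]
      have e : (‖n‖ * ‖z‖ * ‖g‖) ^ 2 = A * ‖z‖ ^ 2 * ‖g‖ ^ 2 := by rw [hA]; ring
      rw [e]
      nlinarith [cs]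
    exact abs_le_of_sq_le_sq' (le_of_mul_le_mul_left key hn0) (by positivity) |>.2
  rw [← h1]
  exact (abs_real_inner_le_norm _ _).trans (mul_le_mul_of_nonneg_right h2 (norm_nonneg _))

/-- the same inequality for finite sums -/
theorem four_sum {ι : Type*} [Fintype ι] (n z g v : ι → ℝ) :
    |(∑ i, z i * g i) * (∑ a, n a * v a) - (∑ i, n i * g i) * (∑ a, z a * v a)
        - (∑ i, n i * z i) * (∑ a, g a * v a)|
      ≤ √(∑ i, n i ^ 2) * √(∑ i, z i ^ 2) * √(∑ i, g i ^ 2) * √(∑ i, v i ^ 2) := by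
  have h := four_abs (WithLp.toLp 2 n : EuclideanSpace ℝ ι) (WithLp.toLp 2 z)
    (WithLp.toLp 2 g) (WithLp.toLp 2 v)
  have hi : ∀ p q : ι → ℝ, inner ℝ (WithLp.toLp 2 p : EuclideanSpace ℝ ι) (WithLp.toLp 2 q)
      = ∑ i, p i * q i := fun p q => by
    simp [PiLp.inner_apply, mul_comm]
  have hn : ∀ p : ι → ℝ, ‖(WithLp.toLp 2 p : EuclideanSpace ℝ ι)‖ = √(∑ i, p i ^ 2) := fun p => by
    simp [EuclideanSpace.norm_eq]
  simpa only [hi, hn] using h

/-- the coefficient inequality -/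
lemma coef_le {H ρ t : ℝ} (hρ : 0 < ρ) (hH : ρ ^ 2 + 2 * ρ ≤ H) (ht : t ≤ ρ ^ 2) :
    (H + ρ ^ 2) ^ 2 * (ρ + t) ≤ (H + t) ^ 2 * (ρ * (1 + ρ)) := by
  -- difference = (ρ²-t) * (…)
  have e : (H + t) ^ 2 * (ρ * (1 + ρ)) - (H + ρ ^ 2) ^ 2 * (ρ + t)
      = (ρ ^ 2 - t) * ((H + ρ ^ 2) ^ 2 - ρ * (1 + ρ) * (2 * H + ρ ^ 2 + t)) := by ring
  have h1 : 0 ≤ ρ ^ 2 - t := by linarith
  have h2 : 0 ≤ (H + ρ ^ 2) ^ 2 - ρ * (1 + ρ) * (2 * H + ρ ^ 2 + t) := by
    have h3 : ρ * (1 + ρ) * (2 * H + ρ ^ 2 + t) ≤ ρ * (1 + ρ) * (2 * H + 2 * ρ ^ 2) := by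
      apply mul_le_mul_of_nonneg_left _ (by positivity)
      linarith
    have h4 : 2 * (ρ * (1 + ρ)) ≤ H + ρ ^ 2 := by nlinarith
    have h5 : 0 ≤ H + ρ ^ 2 := by nlinarith
    nlinarith [mul_le_mul_of_nonneg_right h4 h5]
  have := mul_nonneg h1 h2
  linarith

/-- scalar form of the final estimate -/
lemma fin_le {S E G Θ ρ : ℝ} (hρ : 0 < ρ) (hS : 0 ≤ S) (hE : 0 ≤ E) (hG : 0 ≤ G)
    (h : Θ ^ 2 * E + Θ ^ 2 / ρ * G ≤ (1 + ρ) * S) :
    Θ * (√S * √E + √S * √G) ≤ (1 + ρ) * S := by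
  have s1 : √S ^ 2 = S := Real.sq_sqrt hS
  have s2 : √E ^ 2 = E := Real.sq_sqrt hE
  have s3 : √G ^ 2 = G := Real.sq_sqrt hG
  have t1 : Θ * (√S * √E) ≤ 1 / 2 * (S + Θ ^ 2 * E) := by
    have := sq_nonneg (√S - Θ * √E)
    have e : (√S - Θ * √E) ^ 2 = √S ^ 2 - 2 * (Θ * (√S * √E)) + Θ ^ 2 * √E ^ 2 := by ring
    rw [e, s1, s2] at this
    linarith
  have t2 : Θ * (√S * √G) ≤ 1 / 2 * (ρ * S + Θ ^ 2 / ρ * G) := by
    have := sq_nonneg (ρ * √S - Θ * √G)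
    have e : (ρ * √S - Θ * √G) ^ 2
        = ρ ^ 2 * √S ^ 2 - 2 * ρ * (Θ * (√S * √G)) + Θ ^ 2 * √G ^ 2 := by ring
    rw [e, s1, s3] at this
    have h6 : (ρ ^ 2 * S + Θ ^ 2 * G) = ρ * (ρ * S + Θ ^ 2 / ρ * G) := by
      field_simp
    have h7 : ρ * (2 * (Θ * (√S * √G))) ≤ ρ * (ρ * S + Θ ^ 2 / ρ * G) := by
      rw [← h6]; linarith
    have h8 := le_of_mul_le_mul_left h7 hρ
    linarith
  have e1 : Θ * (√S * √E + √S * √G) = Θ * (√S * √E) + Θ * (√S * √G) := by ring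
  rw [e1]
  linarith

/-- the pointwise bound of the (E7) integrand in the direction `v` -/
theorem pw7 {ι : Type*} [Fintype ι] {x N v j : ι → ℝ} {H ρ : ℝ} (hρ : 0 < ρ)
    (hH : ρ ^ 2 + 2 * ρ ≤ H) (hx : ∑ i, x i ^ 2 = 1) (hN : ∑ i, N i ^ 2 = 1)
    (hj : ∀ i, |j i| ≤ ρ) :
    |∑ a, v a * (-((N a - j a * x a) * ∑ i, (N i - j i * x i) ^ 2)
        + x a * ∑ i, (H + j a ^ 2) / (H + j i ^ 2) * (j i + j a) * (N i - j i * x i) ^ 2
        - j a * (N a - j a * x a) * ∑ i, (N i - j i * x i) * x i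
        - (N a - j a * x a) * ∑ i, (1 + 2 * ((H + j a ^ 2) / (H + j i ^ 2))) * j i
            * ((N i - j i * x i) * x i))|
      ≤ (1 + ρ) * √(∑ a, v a ^ 2) * ∑ i, (N i - j i * x i) ^ 2 := by
  set z : ι → ℝ := fun i => N i - j i * x i with hz
  have hH0 : 0 < H := by nlinarith [sq_nonneg ρ]
  have hθ : ∀ i, 0 < H + j i ^ 2 := fun i => by positivity
  set e : ι → ℝ := fun i => z i / (H + j i ^ 2) with he
  set g : ι → ℝ := fun i => j i * z i / (H + j i ^ 2) with hg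
  set V : ι → ℝ := fun a => (H + j a ^ 2) * v a with hV
  -- the exact decomposition
  have hNz : ∀ i, N i = z i + j i * x i := fun i => by simp only [hz]; ring
  have dec : ∑ a, v a * (-((N a - j a * x a) * ∑ i, (N i - j i * x i) ^ 2)
        + x a * ∑ i, (H + j a ^ 2) / (H + j i ^ 2) * (j i + j a) * (N i - j i * x i) ^ 2
        - j a * (N a - j a * x a) * ∑ i, (N i - j i * x i) * x i
        - (N a - j a * x a) * ∑ i, (1 + 2 * ((H + j a ^ 2) / (H + j i ^ 2))) * j i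
            * ((N i - j i * x i) * x i))
      = ((∑ i, z i * e i) * (∑ a, N a * V a) - (∑ i, N i * e i) * (∑ a, z a * V a)
          - (∑ i, N i * z i) * (∑ a, e a * V a))
        + ((∑ i, z i * g i) * (∑ a, x a * V a) - (∑ i, x i * g i) * (∑ a, z a * V a)
          - (∑ i, x i * z i) * (∑ a, g a * V a)) := by
    have r1 : ∀ a, v a * (-((N a - j a * x a) * ∑ i, (N i - j i * x i) ^ 2)
        + x a * ∑ i, (H + j a ^ 2) / (H + j i ^ 2) * (j i + j a) * (N i - j i * x i) ^ 2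
        - j a * (N a - j a * x a) * ∑ i, (N i - j i * x i) * x i
        - (N a - j a * x a) * ∑ i, (1 + 2 * ((H + j a ^ 2) / (H + j i ^ 2))) * j i
            * ((N i - j i * x i) * x i))
      = ∑ i, (z i * e i * (N a * V a) - N i * e i * (z a * V a) - N i * z i * (e a * V a)
          + (z i * g i * (x a * V a) - x i * g i * (z a * V a) - x i * z i * (g a * V a))) := by
      intro a
      simp only [mul_sum, mul_sub, mul_add, ← sum_neg_distrib, ← sum_sub_distrib,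
        ← sum_add_distrib]
      refine sum_congr rfl fun i _ => ?_
      have h1 := (hθ i).ne'
      have h2 := (hθ a).ne'
      simp only [he, hg, hV, hNz i, hNz a]
      simp only [hz]
      field_simp
      ring
    rw [sum_congr rfl fun a _ => r1 a]
    simp only [sum_add_distrib, sum_sub_distrib, sum_mul, mul_sum]
  rw [dec]
  have b1 := four_sum N z e V
  have b2 := four_sum x z g V
  rw [hN, Real.sqrt_one, one_mul] at b1
  rw [hx, Real.sqrt_one, one_mul] at b2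
  have hS0 : 0 ≤ ∑ i, z i ^ 2 := sum_nonneg fun i _ => sq_nonneg _
  -- norm of V
  have hVn : √(∑ i, V i ^ 2) ≤ (H + ρ ^ 2) * √(∑ i, v i ^ 2) := by
    rw [show (H + ρ ^ 2) * √(∑ i, v i ^ 2) = √((H + ρ ^ 2) ^ 2 * ∑ i, v i ^ 2) by
      rw [Real.sqrt_mul (by positivity), Real.sqrt_sq (by positivity)]]
    apply Real.sqrt_le_sqrt
    rw [mul_sum]
    refine sum_le_sum fun i _ => ?_
    simp only [hV]
    rw [mul_pow]
    apply mul_le_mul_of_nonneg_right _ (sq_nonneg _)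
    have : j i ^ 2 ≤ ρ ^ 2 := sq_le_sq' (abs_le.1 (hj i)).1 (abs_le.1 (hj i)).2
    have h1 := hθ i
    exact pow_le_pow_left₀ h1.le (by linarith) 2
  -- the main inequality
  have main : (H + ρ ^ 2) * (√(∑ i, z i ^ 2) * √(∑ i, e i ^ 2) + √(∑ i, z i ^ 2) * √(∑ i, g i ^ 2))
      ≤ (1 + ρ) * ∑ i, z i ^ 2 := by
    refine fin_le hρ hS0 (sum_nonneg fun i _ => sq_nonneg _) (sum_nonneg fun i _ => sq_nonneg _) ?_
    rw [mul_sum, mul_sum, mul_sum, ← sum_add_distrib]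
    refine sum_le_sum fun i _ => ?_
    have hji : j i ^ 2 ≤ ρ ^ 2 := sq_le_sq' (abs_le.1 (hj i)).1 (abs_le.1 (hj i)).2
    have c1 := coef_le hρ hH hji
    have h1 := hθ i
    have e1 : (H + ρ ^ 2) ^ 2 * e i ^ 2 + (H + ρ ^ 2) ^ 2 / ρ * g i ^ 2
        = (H + ρ ^ 2) ^ 2 * (ρ + j i ^ 2) / ((H + j i ^ 2) ^ 2 * ρ) * z i ^ 2 := by
      simp only [he, hg]
      field_simp
    rw [e1]
    apply mul_le_mul_of_nonneg_right _ (sq_nonneg _)
    rw [div_le_iff₀ (by positivity)]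
    calc _ ≤ _ := c1
      _ = _ := by ring
  have hz0 : 0 ≤ √(∑ i, z i ^ 2) := Real.sqrt_nonneg _
  have he0 : 0 ≤ √(∑ i, e i ^ 2) := Real.sqrt_nonneg _
  have hg0 : 0 ≤ √(∑ i, g i ^ 2) := Real.sqrt_nonneg _
  have hv0 : 0 ≤ √(∑ i, v i ^ 2) := Real.sqrt_nonneg _
  have c1 : √(∑ i, z i ^ 2) * √(∑ i, e i ^ 2) * √(∑ i, V i ^ 2)
      ≤ √(∑ i, z i ^ 2) * √(∑ i, e i ^ 2) * ((H + ρ ^ 2) * √(∑ i, v i ^ 2)) :=
    mul_le_mul_of_nonneg_left hVn (mul_nonneg hz0 he0)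
  have c2 : √(∑ i, z i ^ 2) * √(∑ i, g i ^ 2) * √(∑ i, V i ^ 2)
      ≤ √(∑ i, z i ^ 2) * √(∑ i, g i ^ 2) * ((H + ρ ^ 2) * √(∑ i, v i ^ 2)) :=
    mul_le_mul_of_nonneg_left hVn (mul_nonneg hz0 hg0)
  have c3 := mul_le_mul_of_nonneg_right main hv0
  refine (abs_add_le _ _).trans ((add_le_add b1 b2).trans ?_)
  calc _ ≤ √(∑ i, z i ^ 2) * √(∑ i, e i ^ 2) * ((H + ρ ^ 2) * √(∑ i, v i ^ 2))
        + √(∑ i, z i ^ 2) * √(∑ i, g i ^ 2) * ((H + ρ ^ 2) * √(∑ i, v i ^ 2)) := add_le_add c1 c2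
    _ = (H + ρ ^ 2) * (√(∑ i, z i ^ 2) * √(∑ i, e i ^ 2) + √(∑ i, z i ^ 2) * √(∑ i, g i ^ 2))
          * √(∑ i, v i ^ 2) := by ring
    _ ≤ _ := c3
    _ = _ := by ring

end Vale.Agent.P224.R2.H679
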