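import Vale.Agent.P224.R2.H679.ElCg
import Vale.Agent.P224.R2.H662.RareF

/-!
The mean normal law in the extreme layer: a record checked by the kernel.
-/

namespace Vale.Agent.P224.R2.H679

open MeasureTheory Matrix Finset Filter
open Vale.Agent.P224.R2.H728 Vale.Agent.P224.R2.H579 Vale.Agent.P224.R2.H590
open Vale.Agent.P224.R2.H470 Vale.Agent.P224.R2.H662
open scoped RealInnerProductSpace

set_option linter.unusedSectionVars false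

/-- the product of the odd numbers, rational form -/
def dfQ : ℕ → ℚ
  | 0 => 1
  | k + 1 => dfQ k * (2 * k + 1)

lemma dfQ_cast (k : ℕ) : ((dfQ k : ℚ) : ℝ) = df k := by
  induction k with
  | zero => simp [dfQ, df]
  | succ k ih =>
    rw [df_succ, ← ih]
    simp only [dfQ]
    push_cast
    ring

/-- the fifth partial sum of the exponential -/
def tay (x : ℚ) : ℚ := 1 + x + x ^ 2 / 2 + x ^ 3 / 6 + x ^ 4 / 24 + x ^ 5 / 120

lemma log_le_of_tay {x y : ℚ} (hx : 0 ≤ x) (hy : 0 < y) (h : y ≤ tay x) :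
    Real.log (y : ℝ) ≤ x := by
  have hx' : (0 : ℝ) ≤ x := by exact_mod_cast hx
  have hy' : (0 : ℝ) < y := by exact_mod_cast hy
  rw [Real.log_le_iff_le_exp hy']
  have h1 := Real.sum_le_exp_of_nonneg hx' 6
  have h2 : (y : ℝ) ≤ ((tay x : ℚ) : ℝ) := by exact_mod_cast h
  refine h2.trans (le_trans (le_of_eq ?_) h1)
  simp only [tay, Finset.sum_range_succ, Finset.sum_range_zero, Nat.factorial]
  push_cast
  ring

/-- a record: `ν ≤ nu`, `ν³ ≤ cf hh` give `L √uu ≤ kn hh` -/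
structure CqR where
  nu : ℚ
  cf : ℚ
  R : ℚ
  lg : ℚ
  t : ℚ
  be : ℚ
  kn : ℚ
  K : ℕ
  n : ℕ
  deriving DecidableEq

namespace CqR

def ka (c : CqR) : ℚ := c.nu / (1 - c.nu)

def ccQ (c : CqR) : ℚ := c.ka * (1 + 9 / 2 / (1 + 2 * c.ka))

def f (c : CqR) : ℚ :=
  2 - (c.R ^ 2 - 1) / 2 + (c.R ^ 2 - 1 - 2 * c.lg) / (2 * c.nu) - c.n

def A (c : CqR) : ℚ :=
  16 * c.ka ^ 2 / (1 - 1 / c.R ^ 2) ^ 2 * ((500 / 1359) ^ c.n / (1 + c.f + c.f ^ 2 / 2))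

def B (c : CqR) : ℚ :=
  3 / 2 * ((c.K / c.t) ^ c.K / (c.K + 1) ^ (c.K + 1)) ^ 2 / (1 - c.be)
    * ((4 * c.ka) ^ (c.K + 1) * dfQ (c.K + 1))

def Kn (c : CqR) : ℚ :=
  3 / 2 + c.ccQ + (1 / 4 + c.ccQ / 2) * (c.R ^ 2 - 1) + c.t
    + (3 * (1 / 4 + c.ccQ / 2) ^ 2 / (2 * c.be) * c.A + c.B) * (c.cf / c.nu ^ 3)

/-- the kernel check -/
def ok (c : CqR) : Bool :=
  decide (0 < c.nu) && decide (c.nu ≤ 1 / 4) && decide (1 < c.R) && decide (0 ≤ c.lg)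
  && decide (c.R ≤ tay c.lg) && decide (c.nu ≤ (c.R ^ 2 - 1 - 2 * c.lg) / 2)
  && decide (2 ≤ c.K) && decide (0 < c.t) && decide (0 < c.be) && decide (c.be < 1)
  && decide (0 ≤ c.f) && decide (c.Kn ≤ c.kn)

end CqR

section

variable {X : Type*} {E : Type*} [NormedAddCommGroup E] [InnerProductSpace ℝ E]
  [FiniteDimensional ℝ E] [TopologicalSpace X] [MeasurableSpace X] [CompactSpace X] [BorelSpace X]
  {μ : Measure X} {m : ℕ} {p n : X → E} {ι : Type*} [Fintype ι] [DecidableEq ι]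

/-- soundness of the record -/
theorem cq_of_ok {c : CqR} (hr : c.ok = true) (h : OneP μ m p n) (hm : 0 < m)
    (b : OrthonormalBasis ι ℝ E) {j : ι → ℝ}
    (hT : T0Data μ m (cob b p) (cob b n))
    (hL : LSq μ (Matrix.diagonal j) (cob b p) (cob b n)) {ν L : ℝ} (hν0 : 0 < ν)
    (hν : ∀ a, m2 μ (cob b n) (cob b n) a a ≤ ν) (h1 : ν ≤ c.nu)
    (hc : ν ^ 3 ≤ c.cf * hh μ (Matrix.diagonal j) (cob b p) (cob b n))
    (hL8 : ∀ a, L ≤ L8 m j a) :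
    L * √(uu μ (cob b n)) ≤ c.kn * hh μ (Matrix.diagonal j) (cob b p) (cob b n) := by
  unfold CqR.ok at hr
  simp only [Bool.and_eq_true, decide_eq_true_eq] at hr
  obtain ⟨⟨⟨⟨⟨⟨⟨⟨⟨⟨⟨k1, k2⟩, k3⟩, k4⟩, k5⟩, k6⟩, k7⟩, k8⟩, k9⟩, k10⟩, k11⟩, k12⟩ := hr
  have q1 : (0 : ℝ) < c.nu := by exact_mod_cast k1
  have q2 : (c.nu : ℝ) ≤ 1 / 4 := by
    have := (Rat.cast_le (K := ℝ)).2 k2
    push_cast at this
    exact this
  have q3 : (1 : ℝ) < c.R := by exact_mod_cast k3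
  have q3' : (0 : ℝ) < c.R := by linarith
  have k3' : 0 < c.R := lt_trans (by norm_num) k3
  have qlog : Real.log (c.R : ℝ) ≤ c.lg := log_le_of_tay k4 k3' k5
  have q6 : (c.nu : ℝ) ≤ ((c.R : ℝ) ^ 2 - 1 - 2 * c.lg) / 2 := by
    have := (Rat.cast_le (K := ℝ)).2 k6
    push_cast at this
    exact this
  have q8 : (0 : ℝ) < c.t := by exact_mod_cast k8
  have q9 : (0 : ℝ) < c.be := by exact_mod_cast k9
  have q10 : (c.be : ℝ) < 1 := by exact_mod_cast k10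
  have q11 : (0 : ℝ) ≤ c.f := by exact_mod_cast k11
  have q12 : (c.Kn : ℝ) ≤ c.kn := by exact_mod_cast k12
  have e1 : (c.ka : ℝ) = (c.nu : ℝ) / (1 - c.nu) := by
    unfold CqR.ka
    push_cast
    rfl
  have e2 : (c.ccQ : ℝ) = cc (c.nu : ℝ) := by
    unfold CqR.ccQ cc
    push_cast
    rw [e1]
  have e3 : (c.f : ℝ) = 2 - ((c.R : ℝ) ^ 2 - 1) / 2 + ((c.R : ℝ) ^ 2 - 1 - 2 * c.lg) / (2 * c.nu)
      - c.n := by
    unfold CqR.f
    push_cast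
    rfl
  have e4 : (c.A : ℝ) = 16 * ((c.nu : ℝ) / (1 - c.nu)) ^ 2 / (1 - 1 / (c.R : ℝ) ^ 2) ^ 2
      * ((500 / 1359) ^ c.n / (1 + (c.f : ℝ) + (c.f : ℝ) ^ 2 / 2)) := by
    unfold CqR.A
    push_cast
    rw [e1]
  have e5 : (c.B : ℝ) = cR c.K c.t / (1 - c.be)
      * ((4 * ((c.nu : ℝ) / (1 - c.nu))) ^ (c.K + 1) * df (c.K + 1)) := by
    unfold CqR.B cR
    push_cast
    rw [e1, dfQ_cast]
  have e6 : (c.Kn : ℝ) = 3 / 2 + cc (c.nu : ℝ) + (1 / 4 + cc (c.nu : ℝ) / 2) * ((c.R : ℝ) ^ 2 - 1)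
      + c.t + (3 * (1 / 4 + cc (c.nu : ℝ) / 2) ^ 2 / (2 * c.be) * c.A + c.B)
        * (c.cf / (c.nu : ℝ) ^ 3) := by
    unfold CqR.Kn
    push_cast
    rw [e2]
  have hh0 : 0 ≤ hh μ (Matrix.diagonal j) (cob b p) (cob b n) := by
    exact hT.hh_nonneg _
  have w := cg_closed h hm b hT hL (ν1 := c.nu) (R := c.R) (cf := c.cf) (t := c.t) (β := c.be)
    (A := c.A) (B := c.B) (L := L) (K := c.K) hν0 hν h1 q2 q3 ?_ hc k7 q8 q9 q10 ?_ (le_of_eq e5.symm)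
    hL8
  · refine w.trans (mul_le_mul_of_nonneg_right ?_ hh0)
    rw [← e6]
    exact q12
  · refine q6.trans ?_
    linarith
  · rw [e4]
    refine exp_fac_le c.n (f := c.f) q11 ?_ (by positivity) le_rfl
    rw [e3]
    have h2 : ((c.R : ℝ) ^ 2 - 1 - 2 * c.lg) / (2 * c.nu)
        ≤ ((c.R : ℝ) ^ 2 - 1 - 2 * Real.log c.R) / (2 * c.nu) :=
      div_le_div_of_nonneg_right (by linarith) (by positivity)
    linarith

end

/-- sample records: `(nu, hb)` in `{1/100, 1/50, 1/25} × {0, 9/10000, 16/10000}`, `cf = 24` at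
`hb = 0` and `cf = nu³/hb` otherwise -/
def cqSample : List CqR :=
  [⟨1/100, 24, 7/5, 673/2000, 107/100, 6/25, 367/125, 15, 15⟩,
   ⟨1/50, 24, 309/200, 4351/10000, 357/250, 7/25, 1767/500, 13, 14⟩,
   ⟨1/25, 24, 349/200, 348/625, 957/500, 9/25, 4481/1000, 12, 12⟩,
   ⟨1/100, 1/900, 49/40, 203/1000, 31/50, 11/50, 1189/500, 6, 6⟩,
   ⟨1/50, 2/225, 267/200, 289/1000, 227/250, 13/50, 357/125, 6, 6⟩,
   ⟨1/25, 16/225, 303/200, 831/2000, 67/50, 3/10, 3677/1000, 6, 7⟩,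
   ⟨1/100, 1/1600, 243/200, 487/2500, 289/500, 1/5, 467/200, 5, 6⟩,
   ⟨1/50, 1/200, 33/25, 2777/10000, 213/250, 6/25, 699/250, 5, 6⟩,
   ⟨1/25, 1/25, 297/200, 791/2000, 321/250, 8/25, 1793/500, 6, 6⟩]

lemma cqSample_ok : ∀ c ∈ cqSample, c.ok = true := by decide +kernel

end Vale.Agent.P224.R2.H679
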