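import Vale.Agent.P224.R2.H590.ElCC
import Vale.Agent.P224.R2.H470.Mun

/-!
The mean normal law without the cross term, where the linear part is paid by the square of
`|z|^2`.
-/

namespace Vale.Agent.P224.R2.H679

open MeasureTheory Matrix Finset Filter
open Vale.Agent.P224.R2.H728 Vale.Agent.P224.R2.H579 Vale.Agent.P224.R2.H590

set_option linter.unusedSectionVars false

noncomputable section

section pt

variable {ι : Type*} [Fintype ι] [DecidableEq ι] {m : ℝ} {j u n v : ι → ℝ}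

/-- the sharp bound of the main term with the gain of `|z|^4` -/
lemma main_cs (hn : ∑ a, n a ^ 2 = 1) (hv : ∑ a, v a ^ 2 ≤ 1) :
    1 / 2 * ((∑ b, zz j u n b ^ 2) * (∑ a, v a * n a))
        + 3 / 2 * ((∑ a, j a ^ 2 * u a ^ 2 - 1) * (∑ a, v a * zz j u n a))
      ≤ (3 / 2 + (∑ a, j a ^ 2 * u a ^ 2 - 1) / 4 - (∑ b, zz j u n b ^ 2) / 6
          - ∑ a, v a * (j a * u a)) * (∑ b, zz j u n b ^ 2) := by
  have h1 := main_norm (j := j) (u := u) hn
  set s := ∑ b, zz j u n b ^ 2 with hs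
  set q := ∑ a, j a ^ 2 * u a ^ 2 - 1 with hq
  have hs0 : 0 ≤ s := Finset.sum_nonneg fun a _ => sq_nonneg _
  have h2 := Finset.sum_mul_sq_le_sq_mul_sq Finset.univ v fun a =>
    1 / 2 * (s + 3 * q) * zz j u n a + 3 / 2 * s * (j a * u a)
  rw [h1] at h2
  have h3 : 0 ≤ s ^ 2 * (9 / 4 + 3 / 4 * q - s / 2) := by
    rw [← h1]
    exact Finset.sum_nonneg fun a _ => sq_nonneg _
  have h0 : 0 ≤ (3 / 2 + q / 4 - s / 6) * s := by
    rcases hs0.eq_or_lt with h | h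
    · rw [← h, mul_zero]
    · have h9 : 0 ≤ 9 / 4 + 3 / 4 * q - s / 2 := by
        by_contra hc
        push Not at hc
        have : s ^ 2 * (9 / 4 + 3 / 4 * q - s / 2) < 0 := mul_neg_of_pos_of_neg (by positivity) hc
        linarith
      exact mul_nonneg (by linarith) h.le
  have h4 : (∑ a, v a * (1 / 2 * (s + 3 * q) * zz j u n a + 3 / 2 * s * (j a * u a))) ^ 2
      ≤ ((3 / 2 + q / 4 - s / 6) * s) ^ 2 := by
    refine h2.trans ?_
    have k1 : (∑ a, v a ^ 2) * (s ^ 2 * (9 / 4 + 3 / 4 * q - s / 2))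
        ≤ s ^ 2 * (9 / 4 + 3 / 4 * q - s / 2) := by nlinarith
    refine k1.trans ?_
    rw [mul_pow, mul_comm]
    refine mul_le_mul_of_nonneg_right ?_ (sq_nonneg s)
    nlinarith [sq_nonneg (q / 4 - s / 6)]
  have h5 := (abs_le.1 (abs_le_of_sq_le_sq h4 h0)).2
  clear_value s q
  have e1 : ∑ a, v a * (1 / 2 * (s + 3 * q) * zz j u n a + 3 / 2 * s * (j a * u a))
      = 1 / 2 * (s + 3 * q) * (∑ a, v a * zz j u n a)
        + 3 / 2 * s * ∑ a, v a * (j a * u a) := by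
    rw [Finset.mul_sum, Finset.mul_sum, ← Finset.sum_add_distrib]
    exact Finset.sum_congr rfl fun a _ => by ring
  have e2 : ∑ a, v a * n a = ∑ a, v a * zz j u n a + ∑ a, v a * (j a * u a) := by
    rw [← Finset.sum_add_distrib]
    refine Finset.sum_congr rfl fun a _ => ?_
    unfold zz
    ring
  rw [e1] at h5
  rw [e2]
  nlinarith

/-- **the sharp pointwise bound** with the gain -/
theorem ptwC (hm : 0 < m) {ρ κ : ℝ} (hρ : 0 < ρ) (hρm : ρ ^ 2 ≤ (m + 2) / 2) (hκ : 0 ≤ κ)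
    (h1 : 9 / 8 * ρ ^ 2 ≤ κ * ((m + 2) / 2)) (h2 : 9 / 4 * ρ ^ 2 ≤ κ * ((m + 2) / 2 + ρ ^ 2))
    (hj : ∀ a, |j a| ≤ ρ) (hn : ∑ a, n a ^ 2 = 1) (hv : ∑ a, v a ^ 2 ≤ 1) :
    ∑ a, v a * G8 m j u n a
      ≤ (3 / 2 + (∑ a, j a ^ 2 * u a ^ 2 - 1) / 4 - (∑ b, zz j u n b ^ 2) / 6
          - ∑ a, v a * (j a * u a)
          + (ρ ^ 2 / (m + 2) + κ) * √(∑ a, j a ^ 2 * u a ^ 2) + lx m ρ j v u)
        * (∑ b, zz j u n b ^ 2) := by
  have hH0 : 0 < (m + 2) / 2 := by positivity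
  rw [G8_split hm]
  have k1 := main_cs (j := j) (u := u) hn hv
  have k2 := T2_le (v := v) (u := u) hρ hρm hj (zz j u n)
  have k3 := corr3_le (u := u) hH0 hj hv (zz j u n)
  have k4 := T4_le (u := u) hH0 h1 h2 hκ hj hv (zz j u n)
  have e1 : ∑ a, v a * n a = ∑ a, v a * zz j u n a + ∑ a, v a * (j a * u a) := by
    rw [← Finset.sum_add_distrib]
    refine Finset.sum_congr rfl fun a _ => ?_
    unfold zz
    ring
  have e2 : 2 * ∑ b, j b * u b * zz j u n b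
      = -(∑ a, j a ^ 2 * u a ^ 2 - 1) - ∑ b, zz j u n b ^ 2 := by
    have : (1 : ℝ) = ∑ a, n a ^ 2 := hn.symm
    rw [this, Finset.mul_sum, ← Finset.sum_sub_distrib, ← Finset.sum_neg_distrib,
      ← Finset.sum_sub_distrib]
    refine Finset.sum_congr rfl fun a _ => ?_
    unfold zz
    ring
  have e3 : ρ ^ 2 / ((m + 2) / 2) = 2 * (ρ ^ 2 / (m + 2)) := by
    field_simp
  rw [e3] at k3
  rw [e1] at k1
  unfold lx
  set s := ∑ b, zz j u n b ^ 2
  set r := √(∑ a, j a ^ 2 * u a ^ 2)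
  set q := ∑ a, j a ^ 2 * u a ^ 2 - 1
  set zv := ∑ a, v a * zz j u n a
  set yv := ∑ a, v a * (j a * u a)
  set yz := ∑ b, j b * u b * zz j u n b
  set X := |∑ a, ((m + 2) / 2 + j a ^ 2) * v a / ((m + 2) / 2 + ρ ^ 2) * u a|
  have e4 : yz = (-q - s) / 2 := by linarith
  rw [e4]
  nlinarith

end pt

/-- the positive part of `l - t` against a power of `l` -/
lemma pos_pow {l t : ℝ} (hl : 0 ≤ l) (ht : 0 < t) {K : ℕ} (hK : 1 ≤ K) :
    l - t ≤ (K / t) ^ K * (l / (K + 1)) ^ (K + 1) := by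
  have hK0 : (0 : ℝ) < K := by exact_mod_cast hK
  set y : ℝ := t / K with hy
  have hy0 : 0 < y := by positivity
  have h1 := one_add_mul_le_pow (a := l / ((K + 1) * y) - 1)
    (by have : 0 ≤ l / ((K + 1) * y) := by positivity
        linarith) (K + 1)
  rw [show 1 + (l / ((K + 1) * y) - 1) = l / ((K + 1) * y) by ring] at h1
  push_cast at h1
  have h2 : (1 + ((K : ℝ) + 1) * (l / ((K + 1) * y) - 1)) * y = l - t := by
    rw [hy]
    field_simp
    ring
  have h3 : (K / t) ^ K * (l / (K + 1)) ^ (K + 1) = (l / ((K + 1) * y)) ^ (K + 1) * y := by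
    have e1 : (K : ℝ) / t = 1 / y := by rw [hy]; field_simp
    have e2 : l / ((K + 1) * y) = l / (K + 1) * (1 / y) := by field_simp
    rw [e1, e2, mul_pow, pow_succ (1 / y) K]
    field_simp
  rw [h3, ← h2]
  exact mul_le_mul_of_nonneg_right h1 hy0.le

/-- the constant of the rare part -/
def cR (K : ℕ) (t : ℝ) : ℝ := 3 / 2 * ((K / t) ^ K / (K + 1) ^ (K + 1)) ^ 2

lemma cR_nonneg (K : ℕ) (t : ℝ) : 0 ≤ cR K t := by unfold cR; positivity

/-- the linear part against the square -/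
lemma lin_sq {l s t : ℝ} (hs : 0 ≤ s) (ht : 0 < t) {K : ℕ} (hK : 1 ≤ K) :
    l * s - s ^ 2 / 6 ≤ t * s + cR K t * (max l 0) ^ (2 * (K + 1)) := by
  have hc := cR_nonneg K t
  have hp : 0 ≤ (max l 0) ^ (2 * (K + 1)) := (even_two_mul _).pow_nonneg _
  rcases le_total l t with h | h
  · have h1 : l * s ≤ t * s := mul_le_mul_of_nonneg_right h hs
    have h2 : 0 ≤ s ^ 2 / 6 := by positivity
    have := mul_nonneg hc hp
    linarith
  · have hl : 0 ≤ l := by linarith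
    have h1 := pos_pow hl ht hK
    have h2 : (l - t) ^ 2 ≤ ((K / t) ^ K * (l / (K + 1)) ^ (K + 1)) ^ 2 :=
      pow_le_pow_left₀ (by linarith) h1 2
    have h3 : cR K t * (max l 0) ^ (2 * (K + 1))
        = 3 / 2 * ((K / t) ^ K * (l / (K + 1)) ^ (K + 1)) ^ 2 := by
      rw [max_eq_left hl]
      unfold cR
      have e : l ^ (2 * (K + 1)) = (l ^ (K + 1)) ^ 2 := by rw [← pow_mul, mul_comm]
      rw [e, div_pow l]
      field_simp
    rw [h3]
    nlinarith [sq_nonneg (l - t - s / 3)]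

section law

variable {ι Ω : Type*} [Fintype ι] [DecidableEq ι] [MeasurableSpace Ω] {μ : Measure Ω}
  {m : ℝ} {x N : ι → Ω → ℝ} {j : ι → ℝ}

/-- the moments of two opposite combinations -/
lemma two_pow {A B C : ℝ} (hA : 0 ≤ A) (hB : 0 ≤ B) (h : A + B ≤ C) (k : ℕ) :
    A ^ (k + 1) + B ^ (k + 1) ≤ C ^ (k + 1) := by
  have hC : 0 ≤ C := by linarith
  have h1 : A ^ (k + 1) ≤ A * C ^ k := by
    rw [pow_succ']
    exact mul_le_mul_of_nonneg_left (pow_le_pow_left₀ hA (by linarith) k) hA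
  have h2 : B ^ (k + 1) ≤ B * C ^ k := by
    rw [pow_succ']
    exact mul_le_mul_of_nonneg_left (pow_le_pow_left₀ hB (by linarith) k) hB
  have h3 : (A + B) * C ^ k ≤ C * C ^ k := mul_le_mul_of_nonneg_right h (by positivity)
  rw [pow_succ' C]
  linarith

/-- the radius part against the square -/
lemma rad_sq {q s Q θ β : ℝ} (hs : 0 ≤ s) (hθ : 0 ≤ θ) (hβ : 0 < β) :
    θ * q * s - β * s ^ 2 / 6 ≤ θ * Q * s + 3 * θ ^ 2 / (2 * β) * max (q - Q) 0 ^ 2 := by
  rcases le_total q Q with h | h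
  · have h1 : θ * q * s ≤ θ * Q * s :=
      mul_le_mul_of_nonneg_right (mul_le_mul_of_nonneg_left h hθ) hs
    have h2 : 0 ≤ β * s ^ 2 / 6 := by positivity
    have h3 : 0 ≤ 3 * θ ^ 2 / (2 * β) * max (q - Q) 0 ^ 2 := by positivity
    linarith
  · rw [max_eq_left (by linarith)]
    have h1 : 0 ≤ 3 / (2 * β) * (θ * (q - Q) - β * s / 3) ^ 2 := by positivity
    have h2 : 3 / (2 * β) * (θ * (q - Q) - β * s / 3) ^ 2
        = 3 * θ ^ 2 / (2 * β) * (q - Q) ^ 2 - θ * (q - Q) * s + β * s ^ 2 / 6 := by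
      field_simp
      ring
    rw [h2] at h1
    linarith

/-- the linear part against a share of the square -/
lemma lin_sq' {l s t α : ℝ} (hs : 0 ≤ s) (ht : 0 < t) (hα : 0 < α) {K : ℕ} (hK : 1 ≤ K) :
    l * s - α * s ^ 2 / 6 ≤ t * s + cR K t / α * (max l 0) ^ (2 * (K + 1)) := by
  have hc := cR_nonneg K t
  have hp : 0 ≤ (max l 0) ^ (2 * (K + 1)) := (even_two_mul _).pow_nonneg _
  rcases le_total l t with h | h
  · have h1 : l * s ≤ t * s := mul_le_mul_of_nonneg_right h hs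
    have h2 : 0 ≤ α * s ^ 2 / 6 := by positivity
    have h3 : 0 ≤ cR K t / α * (max l 0) ^ (2 * (K + 1)) := by positivity
    linarith
  · have hl : 0 ≤ l := by linarith
    have h1 := pos_pow hl ht hK
    have h2 : (l - t) ^ 2 ≤ ((K / t) ^ K * (l / (K + 1)) ^ (K + 1)) ^ 2 :=
      pow_le_pow_left₀ (by linarith) h1 2
    have h3 : cR K t / α * (max l 0) ^ (2 * (K + 1))
        = 3 / (2 * α) * ((K / t) ^ K * (l / (K + 1)) ^ (K + 1)) ^ 2 := by
      rw [max_eq_left hl]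
      unfold cR
      have e : l ^ (2 * (K + 1)) = (l ^ (K + 1)) ^ 2 := by rw [← pow_mul, mul_comm]
      rw [e, div_pow l]
      field_simp
    rw [h3]
    have h4 : 0 ≤ 3 / (2 * α) * ((l - t) - α * s / 3) ^ 2 := by positivity
    have h5 : 3 / (2 * α) * ((l - t) - α * s / 3) ^ 2
        = 3 / (2 * α) * (l - t) ^ 2 - (l - t) * s + α * s ^ 2 / 6 := by
      field_simp
      ring
    rw [h5] at h4
    have h6 := mul_le_mul_of_nonneg_left h2 (by positivity : 0 ≤ 3 / (2 * α))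
    linarith

/-- **The mean normal law without the cross term**: the linear part and the radius part are
paid by the square of `|z|^2`. -/
theorem el_cq (h : T0Data μ m x N) (hm : 0 < m) {L ρ κ Q E2 t β M : ℝ} {K : ℕ}
    (hL8 : ∀ a, L ≤ L8 m j a)
    (hρ : 0 < ρ) (hρm : ρ ^ 2 ≤ (m + 2) / 2) (hκ : 0 ≤ κ) (h1 : 9 / 8 * ρ ^ 2 ≤ κ * ((m + 2) / 2))
    (h2 : 9 / 4 * ρ ^ 2 ≤ κ * ((m + 2) / 2 + ρ ^ 2)) (hj : ∀ a, |j a| ≤ ρ)
    (hK : 1 ≤ K) (ht : 0 < t) (hβ : 0 < β) (hβ1 : β < 1) (hQ0 : 0 ≤ Q) (hM0 : 0 ≤ M)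
    (hM : ∀ w : ι → ℝ, ∫ ω, (∑ a, w a * x a ω) ^ (2 * (K + 1)) ∂μ ≤ (∑ a, w a ^ 2) ^ (K + 1) * M)
    (hE : ∫ ω, max (qj j x ω - Q) 0 ^ 2 ∂μ ≤ E2) :
    L * √(uu μ N) ≤ (3 / 2 + (ρ ^ 2 / (m + 2) + κ) + (1 / 4 + (ρ ^ 2 / (m + 2) + κ) / 2) * Q + t)
        * hh μ (diagonal j) x N
      + 3 * (1 / 4 + (ρ ^ 2 / (m + 2) + κ) / 2) ^ 2 / (2 * β) * E2
      + cR K t / (1 - β) * ((4 * ρ ^ 2) ^ (K + 1) * M) := by
  have := h.prob
  have bz := h.bzd j
  have hc := cR_nonneg K t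
  have hβ2 : 0 < 1 - β := by linarith
  have hhn : 0 ≤ hh μ (diagonal j) x N := h.hh_nonneg _
  set c : ℝ := ρ ^ 2 / (m + 2) + κ with hcd
  have hc0 : 0 ≤ c := by positivity
  set θ : ℝ := 1 / 4 + c / 2 with hθd
  have hθ0 : 0 ≤ θ := by positivity
  have hE0 : 0 ≤ E2 := le_trans (integral_nonneg fun ω => sq_nonneg _) hE
  rcases (Real.sqrt_nonneg (uu μ N)).eq_or_lt with h0 | h0
  · rw [← h0, mul_zero]
    positivity
  obtain ⟨v, hv, he⟩ := exists_dir h (√(uu μ N)) h0 rfl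
  have hH0 : 0 < (m + 2) / 2 := by positivity
  set v1 : ι → ℝ := fun a => ((m + 2) / 2 + j a ^ 2) * v a / ((m + 2) / 2 + ρ ^ 2) with hv1
  have hv1' : ∑ a, v1 a ^ 2 ≤ 1 := short_vec hH0 hj hv.le
  set wp : ι → ℝ := fun a => -(v a * j a) + ρ * v1 a with hwp
  set wm : ι → ℝ := fun a => -(v a * j a) - ρ * v1 a with hwm
  have hv2' : ∑ a, (v a * j a) ^ 2 ≤ ρ ^ 2 := by
    calc ∑ a, (v a * j a) ^ 2 ≤ ∑ a, v a ^ 2 * ρ ^ 2 := by
          refine Finset.sum_le_sum fun a _ => ?_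
          rw [mul_pow]
          refine mul_le_mul_of_nonneg_left ?_ (sq_nonneg _)
          rw [← sq_abs]
          exact pow_le_pow_left₀ (abs_nonneg _) (hj a) 2
      _ = ρ ^ 2 := by rw [← Finset.sum_mul, hv, one_mul]
  have hw : ∑ a, wp a ^ 2 + ∑ a, wm a ^ 2 ≤ 4 * ρ ^ 2 := by
    have e : ∑ a, wp a ^ 2 + ∑ a, wm a ^ 2
        = 2 * (∑ a, (v a * j a) ^ 2) + 2 * ρ ^ 2 * ∑ a, v1 a ^ 2 := by
      rw [← Finset.sum_add_distrib, Finset.mul_sum, Finset.mul_sum, ← Finset.sum_add_distrib]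
      refine Finset.sum_congr rfl fun a _ => ?_
      simp only [hwp, hwm]
      ring
    rw [e]
    have := mul_le_mul_of_nonneg_left hv1' (by positivity : 0 ≤ 2 * ρ ^ 2)
    linarith
  have bw : ∀ w : ι → ℝ, BM fun ω => (∑ a, w a * x a ω) ^ (2 * (K + 1)) := fun w =>
    (BM.sum _ fun a _ => (h.bx a).const_mul _).pow _
  have bq : BM fun ω => max (qj j x ω - Q) 0 ^ 2 := by
    have b1 : BM fun ω => qj j x ω - Q := (bqj h j).sub (BM.const Q)
    have e : (fun ω => max (qj j x ω - Q) 0 ^ 2)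
        = fun ω => (1 / 2 * ((qj j x ω - Q) + |qj j x ω - Q|)) ^ 2 := by
      funext ω
      congr 1
      rcases le_total (qj j x ω - Q) 0 with h9 | h9
      · rw [max_eq_right h9, abs_of_nonpos h9]; ring
      · rw [max_eq_left h9, abs_of_nonneg h9]; ring
    rw [e]
    exact ((b1.add (H807.BM.abs b1)).const_mul _).pow 2
  have b0 : BM fun ω => (3 / 2 + c + θ * Q + t) * sz j x N ω := (bsz h j).const_mul _
  have b1 : BM fun ω => 3 * θ ^ 2 / (2 * β) * max (qj j x ω - Q) 0 ^ 2 := bq.const_mul _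
  have b3 : BM fun ω => cR K t / (1 - β) * (∑ a, wp a * x a ω) ^ (2 * (K + 1)) :=
    (bw wp).const_mul _
  have b4 : BM fun ω => cR K t / (1 - β) * (∑ a, wm a * x a ω) ^ (2 * (K + 1)) :=
    (bw wm).const_mul _
  have hp : ∀ ω, ∑ a, v a * G8 m j (fun b => x b ω) (fun b => N b ω) a
      ≤ (3 / 2 + c + θ * Q + t) * sz j x N ω + 3 * θ ^ 2 / (2 * β) * max (qj j x ω - Q) 0 ^ 2
        + cR K t / (1 - β) * (∑ a, wp a * x a ω) ^ (2 * (K + 1))
        + cR K t / (1 - β) * (∑ a, wm a * x a ω) ^ (2 * (K + 1)) := by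
    intro ω
    have k := ptwC (u := fun b => x b ω) (n := fun b => N b ω) hm hρ hρm hκ h1 h2 hj (h.uN ω) hv.le
    have e2 : ∑ b, zz j (fun b => x b ω) (fun b => N b ω) b ^ 2 = sz j x N ω := by
      unfold sz
      exact Finset.sum_congr rfl fun b _ => by
        have e1 : zz j (fun b => x b ω) (fun b => N b ω) b = zd j x N b ω := rfl
        rw [e1, sq]
    have e3 : √(∑ a, j a ^ 2 * x a ω ^ 2) = rr j x ω := rfl
    have e4 : lx m ρ j v (fun b => x b ω) = ρ * |∑ a, v1 a * x a ω| := rfl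
    have e5 : ∑ a, j a ^ 2 * x a ω ^ 2 - 1 = qj j x ω := rfl
    rw [e2, e3, e4, e5, ← hcd] at k
    refine k.trans ?_
    have s0 := sz_nonneg j x N ω
    have hr1 : rr j x ω ≤ 1 + qj j x ω / 2 := by
      have k1 := qj_eq j x ω
      nlinarith [sq_nonneg (rr j x ω - 1)]
    set l : ℝ := -(∑ a, v a * (j a * x a ω)) + ρ * |∑ a, v1 a * x a ω| with hl
    have k5 := lin_sq' (l := l) s0 ht hβ2 hK
    have k8 := rad_sq (q := qj j x ω) (Q := Q) s0 hθ0 hβ
    have ep : ∑ a, wp a * x a ω = -(∑ a, v a * (j a * x a ω)) + ρ * ∑ a, v1 a * x a ω := by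
      rw [Finset.mul_sum, ← Finset.sum_neg_distrib, ← Finset.sum_add_distrib]
      refine Finset.sum_congr rfl fun a _ => ?_
      simp only [hwp]
      ring
    have em : ∑ a, wm a * x a ω = -(∑ a, v a * (j a * x a ω)) - ρ * ∑ a, v1 a * x a ω := by
      rw [Finset.mul_sum, ← Finset.sum_neg_distrib, ← Finset.sum_sub_distrib]
      refine Finset.sum_congr rfl fun a _ => ?_
      simp only [hwm]
      ring
    have k6 : (max l 0) ^ (2 * (K + 1)) ≤ (∑ a, wp a * x a ω) ^ (2 * (K + 1))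
        + (∑ a, wm a * x a ω) ^ (2 * (K + 1)) := by
      have hpp : 0 ≤ (∑ a, wp a * x a ω) ^ (2 * (K + 1)) := (even_two_mul _).pow_nonneg _
      have hmm : 0 ≤ (∑ a, wm a * x a ω) ^ (2 * (K + 1)) := (even_two_mul _).pow_nonneg _
      rcases le_total l 0 with h9 | h9
      · rw [max_eq_right h9, zero_pow (by omega)]
        positivity
      · rw [max_eq_left h9]
        rcases le_total 0 (∑ a, v1 a * x a ω) with h8 | h8
        · rw [hl, abs_of_nonneg h8, ← ep]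
          linarith
        · rw [hl, abs_of_nonpos h8, mul_neg, ← sub_eq_add_neg, ← em]
          linarith
    have k7 := mul_le_mul_of_nonneg_left k6 (by positivity : 0 ≤ cR K t / (1 - β))
    have k9 : c * rr j x ω * sz j x N ω ≤ c * (1 + qj j x ω / 2) * sz j x N ω :=
      mul_le_mul_of_nonneg_right (mul_le_mul_of_nonneg_left hr1 hc0) s0
    have k10 : (3 / 2 + qj j x ω / 4 - sz j x N ω / 6 - ∑ a, v a * (j a * x a ω)
          + c * rr j x ω + ρ * |∑ a, v1 a * x a ω|) * sz j x N ω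
        = (3 / 2) * sz j x N ω + qj j x ω / 4 * sz j x N ω + c * rr j x ω * sz j x N ω
          + l * sz j x N ω - sz j x N ω ^ 2 / 6 := by rw [hl]; ring
    rw [k10]
    have k11 : qj j x ω / 4 * sz j x N ω + c * (1 + qj j x ω / 2) * sz j x N ω
        = c * sz j x N ω + θ * qj j x ω * sz j x N ω := by rw [hθd]; ring
    linarith
  have h3 := law8_dir h hm j v hv he (Real.sqrt_nonneg _) hL8
    (((b0.add b1).add b3).add b4) hp
  rw [integral_add ((b0.add b1).add b3).int b4.int, integral_add (b0.add b1).int b3.int,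
    integral_add b0.int b1.int] at h3
  simp only [integral_const_mul] at h3
  rw [← hh_sz h j] at h3
  have q1 := mul_le_mul_of_nonneg_left (hM wp) (by positivity : 0 ≤ cR K t / (1 - β))
  have q2 := mul_le_mul_of_nonneg_left (hM wm) (by positivity : 0 ≤ cR K t / (1 - β))
  have q3 := mul_le_mul_of_nonneg_left hE (by positivity : 0 ≤ 3 * θ ^ 2 / (2 * β))
  have q4 := two_pow (Finset.sum_nonneg fun a _ => sq_nonneg (wp a))
    (Finset.sum_nonneg fun a _ => sq_nonneg (wm a)) hw K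
  have q5 := mul_le_mul_of_nonneg_left (mul_le_mul_of_nonneg_right q4 hM0)
    (by positivity : 0 ≤ cR K t / (1 - β))
  have q6 : cR K t / (1 - β) * (((∑ a, wp a ^ 2) ^ (K + 1) + (∑ a, wm a ^ 2) ^ (K + 1)) * M)
      = cR K t / (1 - β) * ((∑ a, wp a ^ 2) ^ (K + 1) * M)
        + cR K t / (1 - β) * ((∑ a, wm a ^ 2) ^ (K + 1) * M) := by ring
  rw [q6] at q5
  linarith

end law

section oneP

open Vale.Agent.P224.R2.H470 Vale.Agent.P224.R2.H662
open scoped RealInnerProductSpace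

variable {X : Type*} {E : Type*} [NormedAddCommGroup E] [InnerProductSpace ℝ E]
  [FiniteDimensional ℝ E] [TopologicalSpace X] [MeasurableSpace X] [CompactSpace X] [BorelSpace X]
  {μ : Measure X} {m : ℕ} {p n : X → E} {ι : Type*} [Fintype ι]

/-- the moment hypothesis of `el_cs` -/
theorem mom_gen [IsProbabilityMeasure μ] (h : OneP μ m p n) (b : OrthonormalBasis ι ℝ E) (K : ℕ)
    (w : ι → ℝ) : ∫ ω, (∑ a, w a * cob b p a ω) ^ (2 * (K + 1)) ∂μ
      ≤ (∑ a, w a ^ 2) ^ (K + 1) * (df (K + 1) / (m + 1) ^ (K + 1)) := by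
  set W : E := ∑ a, w a • b a with hW
  have e1 : ∀ ω, ∑ a, w a * cob b p a ω = ⟪p ω, W⟫ := by
    intro ω
    rw [hW, inner_sum]
    refine Finset.sum_congr rfl fun a _ => ?_
    rw [real_inner_smul_right]
    rfl
  have e2 : ‖W‖ ^ 2 = ∑ a, w a ^ 2 := by
    rw [← real_inner_self_eq_norm_sq, hW, b.orthonormal.inner_sum w w Finset.univ]
    exact Finset.sum_congr rfl fun a _ => by simp [sq]
  simp only [e1]
  have h1 := H925.mom_even h W (K + 1)
  have e3 : μ.real Set.univ = 1 := by simp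
  rw [e3, mul_one, pow_mul, e2] at h1
  refine h1.trans ?_
  rw [mul_comm]
  refine mul_le_mul_of_nonneg_left ?_ (by positivity)
  have e0 : ∏ i ∈ Finset.range (K + 1), (2 * (i : ℝ) + 1) / (m + 2 * i + 1)
      ≤ ∏ i ∈ Finset.range (K + 1), (2 * (i : ℝ) + 1) / (m + 1) :=
    Finset.prod_le_prod (fun _ _ => by positivity) fun i _ => by
      refine div_le_div_of_nonneg_left (by positivity) (by positivity) ?_
      have : (0 : ℝ) ≤ i := Nat.cast_nonneg i
      linarith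
  have e4 : ∏ i ∈ Finset.range (K + 1), (2 * (i : ℝ) + 1) / ((m : ℝ) + 1)
      = df (K + 1) / (m + 1) ^ (K + 1) := by
    rw [Finset.prod_div_distrib, Finset.prod_const, Finset.card_range]
    rfl
  rw [e4] at e0
  exact e0

variable [DecidableEq ι]

/-- **The mean normal law without the cross term, uniform in the dimension.** -/
theorem el_cq_uni [IsProbabilityMeasure μ] (h1P : OneP μ m p n) (b : OrthonormalBasis ι ℝ E)
    {j : ι → ℝ} (h : T0Data μ m (cob b p) (cob b n)) (hm : 0 < m) {L ρ κ kap Q E2 t β : ℝ} {K : ℕ}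
    (hL8 : ∀ a, L ≤ L8 m j a)
    (hρ : 0 < ρ) (hρm : ρ ^ 2 ≤ ((m : ℝ) + 2) / 2) (hκ : 0 ≤ κ)
    (h1 : 9 / 8 * ρ ^ 2 ≤ κ * (((m : ℝ) + 2) / 2))
    (h2 : 9 / 4 * ρ ^ 2 ≤ κ * (((m : ℝ) + 2) / 2 + ρ ^ 2)) (hj : ∀ a, |j a| ≤ ρ)
    (hK : 1 ≤ K) (ht : 0 < t) (hβ : 0 < β) (hβ1 : β < 1) (hQ0 : 0 ≤ Q)
    (hkap : ρ ^ 2 ≤ kap * (m + 1))
    (hE : ∫ ω, max (qj j (cob b p) ω - Q) 0 ^ 2 ∂μ ≤ E2) :
    L * √(uu μ (cob b n))
      ≤ (3 / 2 + (ρ ^ 2 / (m + 2) + κ) + (1 / 4 + (ρ ^ 2 / (m + 2) + κ) / 2) * Q + t)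
        * hh μ (diagonal j) (cob b p) (cob b n)
      + 3 * (1 / 4 + (ρ ^ 2 / (m + 2) + κ) / 2) ^ 2 / (2 * β) * E2
      + cR K t / (1 - β) * ((4 * kap) ^ (K + 1) * df (K + 1)) := by
  have hm1 : (0 : ℝ) < m + 1 := by positivity
  have hβ2 : 0 < 1 - β := by linarith
  have h3 := el_cq h (by exact_mod_cast hm) hL8 hρ hρm hκ h1 h2 hj hK ht hβ hβ1 hQ0
    (div_nonneg (df_nonneg _) (by positivity)) (mom_gen h1P b K) hE
  refine h3.trans ?_
  have h4 : (4 * ρ ^ 2) ^ (K + 1) * (df (K + 1) / ((m : ℝ) + 1) ^ (K + 1))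
      ≤ (4 * kap) ^ (K + 1) * df (K + 1) := by
    rw [mul_div_assoc', mul_comm _ (df (K + 1)), mul_div_assoc, ← div_pow, mul_comm]
    refine mul_le_mul_of_nonneg_right ?_ (df_nonneg _)
    refine pow_le_pow_left₀ (by positivity) ?_ _
    rw [div_le_iff₀ hm1]
    linarith
  have hc := cR_nonneg K t
  have h5 := mul_le_mul_of_nonneg_left h4 (by positivity : 0 ≤ cR K t / (1 - β))
  linarith

end oneP

end

end Vale.Agent.P224.R2.H679
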