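import Vale.Agent.P224.R2.H679.ElCq
import Vale.Agent.P224.R2.H662.RareG

/-!
The excess of the radius from the exponential moments, scale-free.
-/

namespace Vale.Agent.P224.R2.H679

open MeasureTheory Matrix Finset Filter
open Vale.Agent.P224.R2.H728 Vale.Agent.P224.R2.H579 Vale.Agent.P224.R2.H590
open Vale.Agent.P224.R2.H470 Vale.Agent.P224.R2.H662
open scoped RealInnerProductSpace

set_option linter.unusedSectionVars false

noncomputable section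

section

variable {X : Type*} {E : Type*} [NormedAddCommGroup E] [InnerProductSpace ℝ E]
  [FiniteDimensional ℝ E] [TopologicalSpace X] [MeasurableSpace X] [CompactSpace X] [BorelSpace X]
  {μ : Measure X} {m : ℕ} {p n : X → E} {ι : Type*} [Fintype ι]

/-- the square of the excess against an exponential moment -/
theorem q2_mgf [IsProbabilityMeasure μ] (h : OneP μ m p n) (b : OrthonormalBasis ι ℝ E)
    {j : ι → ℝ} {l R2 G : ℝ} (hl : 0 < l) (hG : ∫ x, Real.exp (l * qd b j p x) ∂μ ≤ G) :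
    ∫ x, max (qd b j p x - R2) 0 ^ 2 ∂μ ≤ 4 / l ^ 2 * Real.exp (-2 - l * R2) * G := by
  have cp := h.cp
  have cq : Continuous fun x => qd b j p x := by
    unfold qd
    fun_prop
  have h1 : ∀ x, max (qd b j p x - R2) 0 ^ 2
      ≤ 4 / l ^ 2 * Real.exp (-2 - l * R2) * Real.exp (l * qd b j p x) := by
    intro x
    rcases le_total (qd b j p x) R2 with hc | hc
    · rw [max_eq_right (by linarith)]
      have : 0 ≤ 4 / l ^ 2 * Real.exp (-2 - l * R2) * Real.exp (l * qd b j p x) := by positivity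
      simpa using this
    · rw [max_eq_left (by linarith)]
      set y := qd b j p x - R2 with hy
      have hy0 : 0 ≤ y := by linarith
      have h2 := sq_le_expR (u := l * y / 2) (by positivity)
      have e1 : y ^ 2 = 4 / l ^ 2 * (l * y / 2) ^ 2 := by
        field_simp
        ring
      rw [e1, mul_assoc]
      refine mul_le_mul_of_nonneg_left (h2.trans (le_of_eq ?_)) (by positivity)
      rw [← Real.exp_add, ← Real.exp_add]
      congr 1
      rw [hy]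
      ring
  calc ∫ x, max (qd b j p x - R2) 0 ^ 2 ∂μ
      ≤ ∫ x, 4 / l ^ 2 * Real.exp (-2 - l * R2) * Real.exp (l * qd b j p x) ∂μ :=
        integral_mono (int_of_cont (by fun_prop)) (int_of_cont (by fun_prop)) h1
    _ = 4 / l ^ 2 * Real.exp (-2 - l * R2) * ∫ x, Real.exp (l * qd b j p x) ∂μ :=
        integral_const_mul _ _
    _ ≤ _ := mul_le_mul_of_nonneg_left hG (by positivity)

variable [DecidableEq ι]

/-- the Chernoff form of the square of the excess -/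
theorem q4_opt (h : OneP μ m p n) (b : OrthonormalBasis ι ℝ E) {j : ι → ℝ}
    (hT : T0Data μ m (cob b p) (cob b n))
    (hL : LSq μ (Matrix.diagonal j) (cob b p) (cob b n)) {ν R : ℝ} (hν0 : 0 < ν) (hν1 : ν < 1)
    (hν : ∀ a, m2 μ (cob b n) (cob b n) a a ≤ ν) (hR : 1 < R) :
    ∫ x, max (qd b j p x - R ^ 2) 0 ^ 2 ∂μ
      ≤ 16 * (ν / (1 - ν)) ^ 2 / (1 - 1 / R ^ 2) ^ 2
        * Real.exp (-2 + (R ^ 2 - 1) / 2 - (R ^ 2 - 1 - 2 * Real.log R) / (2 * ν)) := by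
  have := hT.prob
  have hR0 : 0 < R := by linarith
  have h1ν : 0 < 1 - ν := by linarith
  have hR2 : 1 < R ^ 2 := by nlinarith
  have hy0 : 0 < 1 - 1 / R ^ 2 := by
    have : 1 / R ^ 2 < 1 := by rw [div_lt_one (by positivity)]; exact hR2
    linarith
  have hy1 : 1 - 1 / R ^ 2 < 1 := by
    have : 0 < 1 / R ^ 2 := by positivity
    linarith
  set y : ℝ := 1 - 1 / R ^ 2 with hy
  obtain ⟨hj, hS⟩ := jj_bounds b hT hL hν1 hν
  set κ : ℝ := ν / (1 - ν) with hκ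
  have hκ0 : 0 < κ := by positivity
  have e0 : 2 * (y / (2 * κ)) * κ = y := by field_simp
  have h1 := mgf_le h b hκ0 hj hS (l := y / (2 * κ)) (by positivity) (by rw [e0]; exact hy1)
  rw [e0] at h1
  have h2 := q2_mgf h b (j := j) (l := y / (2 * κ)) (R2 := R ^ 2) (by positivity) h1
  refine h2.trans (le_of_eq ?_)
  have e1 : 1 - y = 1 / R ^ 2 := by rw [hy]; ring
  have e2 : Real.log (1 - y) = -(2 * Real.log R) := by
    rw [e1, one_div, Real.log_inv, Real.log_pow]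
    push_cast
    ring
  have e3 : 1 / (1 - ν) / (2 * κ) = 1 / (2 * ν) := by
    rw [hκ]
    field_simp
  have e4 : y * R ^ 2 = R ^ 2 - 1 := by
    rw [hy]
    field_simp
  have e5 : y / (2 * κ) * R ^ 2 = (R ^ 2 - 1) / (2 * ν) - (R ^ 2 - 1) / 2 := by
    have : y / (2 * κ) * R ^ 2 = y * R ^ 2 / (2 * κ) := by ring
    rw [this, e4, hκ]
    field_simp
  have e6 : 4 / (y / (2 * κ)) ^ 2 = 16 * κ ^ 2 / y ^ 2 := by
    rw [div_pow, mul_pow, div_div_eq_mul_div]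
    ring
  rw [e6, e2, e3, mul_assoc, ← Real.exp_add]
  congr 2
  rw [e5]
  field_simp
  ring

/-- the excess of the radius, scale-free, from the exponential moments -/
theorem q4_le (h : OneP μ m p n) (b : OrthonormalBasis ι ℝ E) {j : ι → ℝ}
    (hT : T0Data μ m (cob b p) (cob b n))
    (hL : LSq μ (Matrix.diagonal j) (cob b p) (cob b n)) {ν ν1 R cf A : ℝ}
    (hν0 : 0 < ν) (hν : ∀ a, m2 μ (cob b n) (cob b n) a a ≤ ν) (h1 : ν ≤ ν1) (hν1 : ν1 < 1)
    (hR : 1 < R) (hg : ν1 ≤ (R ^ 2 - 1 - 2 * Real.log R) / 2)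
    (hc : ν ^ 3 ≤ cf * hh μ (Matrix.diagonal j) (cob b p) (cob b n))
    (hA : 16 * (ν1 / (1 - ν1)) ^ 2 / (1 - 1 / R ^ 2) ^ 2
      * Real.exp (-2 + (R ^ 2 - 1) / 2 - (R ^ 2 - 1 - 2 * Real.log R) / (2 * ν1)) ≤ A) :
    0 ≤ A ∧ ∫ ω, max (qj j (cob b p) ω - (R ^ 2 - 1)) 0 ^ 2 ∂μ
      ≤ A * (cf * hh μ (diagonal j) (cob b p) (cob b n) / ν1 ^ 3) := by
  have hν1' : 0 < ν1 := hν0.trans_le h1
  have h1ν : 0 < 1 - ν := by linarith
  have h1ν1 : 0 < 1 - ν1 := by linarith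
  have hA0 : 0 ≤ A := le_trans (by positivity) hA
  refine ⟨hA0, ?_⟩
  have q1 := q4_opt h b hT hL hν0 (h1.trans_lt hν1) hν hR
  have e : ∀ ω, max (qj j (cob b p) ω - (R ^ 2 - 1)) 0 ^ 2 = max (qd b j p ω - R ^ 2) 0 ^ 2 := by
    intro ω
    congr 2
    unfold qj qd
    have : ∑ a, j a ^ 2 * cob b p a ω ^ 2 = ∑ a, j a ^ 2 * ⟪p ω, b a⟫ ^ 2 := rfl
    rw [this]
    ring
  simp only [e]
  refine q1.trans ?_
  have hr3 : (ν / ν1) ^ 3 ≤ cf * hh μ (diagonal j) (cob b p) (cob b n) / ν1 ^ 3 := by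
    rw [div_pow]
    exact div_le_div_of_nonneg_right hc (by positivity)
  set g : ℝ := (R ^ 2 - 1 - 2 * Real.log R) / 2 with hgd
  have k1 := exp_inv_le (g := g) 1 hν0 h1 (by push_cast; linarith)
  have k2 : (ν / (1 - ν)) ^ 2 ≤ (ν1 / (1 - ν1)) ^ 2 * (ν / ν1) ^ 2 := by
    rw [← mul_pow]
    refine pow_le_pow_left₀ (by positivity) ?_ 2
    rw [div_mul_div_comm, div_le_div_iff₀ h1ν (by positivity)]
    have : ν * (ν1 * (1 - ν1)) ≤ ν * (ν1 * (1 - ν)) :=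
      mul_le_mul_of_nonneg_left (mul_le_mul_of_nonneg_left (by linarith) hν1'.le) hν0.le
    nlinarith
  have e7 : ∀ v : ℝ, 0 < v → Real.exp (-2 + (R ^ 2 - 1) / 2 - (R ^ 2 - 1 - 2 * Real.log R) / (2 * v))
      = Real.exp (-2 + (R ^ 2 - 1) / 2) * Real.exp (-(g / v)) := by
    intro v hv
    rw [← Real.exp_add]
    congr 1
    rw [hgd]
    field_simp
    ring
  rw [e7 ν hν0]
  rw [e7 ν1 hν1'] at hA
  set W := Real.exp (-2 + (R ^ 2 - 1) / 2) with hW
  have hW0 : 0 < W := Real.exp_pos _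
  calc 16 * (ν / (1 - ν)) ^ 2 / (1 - 1 / R ^ 2) ^ 2 * (W * Real.exp (-(g / ν)))
      ≤ 16 * ((ν1 / (1 - ν1)) ^ 2 * (ν / ν1) ^ 2) / (1 - 1 / R ^ 2) ^ 2
        * (W * (Real.exp (-(g / ν1)) * (ν / ν1) ^ 1)) := by
        refine mul_le_mul ?_ (mul_le_mul_of_nonneg_left k1 hW0.le) (by positivity) (by positivity)
        exact div_le_div_of_nonneg_right (by linarith) (sq_nonneg _)
    _ = (16 * (ν1 / (1 - ν1)) ^ 2 / (1 - 1 / R ^ 2) ^ 2 * (W * Real.exp (-(g / ν1))))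
        * (ν / ν1) ^ 3 := by ring
    _ ≤ A * (cf * hh μ (diagonal j) (cob b p) (cob b n) / ν1 ^ 3) :=
        mul_le_mul hA hr3 (by positivity) hA0

/-- **The mean normal law, closed form**, Chernoff version. -/
theorem cg_closed (h : OneP μ m p n) (hm : 0 < m) (b : OrthonormalBasis ι ℝ E) {j : ι → ℝ}
    (hT : T0Data μ m (cob b p) (cob b n))
    (hL : LSq μ (Matrix.diagonal j) (cob b p) (cob b n)) {ν ν1 R cf t β A B L : ℝ} {K : ℕ}
    (hν0 : 0 < ν) (hν : ∀ a, m2 μ (cob b n) (cob b n) a a ≤ ν) (h1 : ν ≤ ν1) (hν1 : ν1 ≤ 1 / 4)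
    (hR : 1 < R) (hg : ν1 ≤ (R ^ 2 - 1 - 2 * Real.log R) / 2)
    (hc : ν ^ 3 ≤ cf * hh μ (Matrix.diagonal j) (cob b p) (cob b n))
    (hK : 2 ≤ K) (ht : 0 < t) (hβ : 0 < β) (hβ1 : β < 1)
    (hA : 16 * (ν1 / (1 - ν1)) ^ 2 / (1 - 1 / R ^ 2) ^ 2
      * Real.exp (-2 + (R ^ 2 - 1) / 2 - (R ^ 2 - 1 - 2 * Real.log R) / (2 * ν1)) ≤ A)
    (hB : cR K t / (1 - β) * ((4 * (ν1 / (1 - ν1))) ^ (K + 1) * df (K + 1)) ≤ B)
    (hL8 : ∀ a, L ≤ L8 m j a) :
    L * √(uu μ (cob b n))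
      ≤ (3 / 2 + cc ν1 + (1 / 4 + cc ν1 / 2) * (R ^ 2 - 1) + t
          + (3 * (1 / 4 + cc ν1 / 2) ^ 2 / (2 * β) * A + B) * (cf / ν1 ^ 3))
        * hh μ (diagonal j) (cob b p) (cob b n) := by
  obtain ⟨hA0, q3⟩ := q4_le h b hT hL hν0 hν h1 (by linarith) hR hg hc hA
  exact cq_core h hm b hT hL hν0 hν h1 hν1 (by nlinarith) hc hK ht hβ hβ1 hA0 q3 hB hL8

end

end

end Vale.Agent.P224.R2.H679
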