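import Vale.Agent.P224.R2.H679.ElCS
import Vale.Agent.P224.R2.H662.RareF

/-!
The mean normal law in closed scale-free form: `ν ≤ ν₁`, `ν³ ≤ c h` imply `L |e| ≤ K h`,
uniformly in the dimension, with a kernel check of the constant.
-/

namespace Vale.Agent.P224.R2.H679

open MeasureTheory Matrix Finset Filter
open Vale.Agent.P224.R2.H728 Vale.Agent.P224.R2.H579 Vale.Agent.P224.R2.H590
open Vale.Agent.P224.R2.H470 Vale.Agent.P224.R2.H662
open scoped RealInnerProductSpace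

set_option linter.unusedSectionVars false

noncomputable section

section

variable {X : Type*} {E : Type*} [NormedAddCommGroup E] [InnerProductSpace ℝ E]
  [FiniteDimensional ℝ E] [TopologicalSpace X] [MeasurableSpace X] [CompactSpace X] [BorelSpace X]
  {μ : Measure X} {m : ℕ} {p n : X → E} {ι : Type*} [Fintype ι]

/-- the square of the excess of the radius -/
theorem q2_diag [IsProbabilityMeasure μ] (h : OneP μ m p n) (b : OrthonormalBasis ι ℝ E)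
    {j : ι → ℝ} {κ S l R δ : ℝ} (hj : ∀ a, j a ^ 2 ≤ κ * (m + 1))
    (hS : ∑ a, j a ^ 2 ≤ S * (m + 1)) (hl : 1 ≤ l) (hlk : 2 * l * κ < 1) (hδ : 0 < δ)
    (hs : S / (1 - 2 * l * κ) + δ ≤ R ^ 2) :
    ∫ x, max (qd b j p x - R ^ 2) 0 ^ 2 ∂μ ≤ 4 / (δ * l ^ 2) / l * Real.exp (-(l * δ) - 3) := by
  have l0 : 0 < l := by linarith
  have cp := h.cp
  have cn := h.cn
  have cq : Continuous fun x => qd b j p x := by
    unfold qd
    fun_prop
  have hrow := exp_row_diag h b hj hS l0.le hlk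
  set s0 := S / (1 - 2 * l * κ) with hs0
  have hi : Integrable (fun x => Real.exp (l * qd b j p x) * (qd b j p x - s0)) μ :=
    int_of_cont (by fun_prop)
  have hC : 0 ≤ 4 / (δ * l ^ 2) := by positivity
  have hK : 0 ≤ 4 / (δ * l ^ 2) * Real.exp (-2) * Real.exp (-(l * R ^ 2)) := by positivity
  refine (tail_of_row l0 hK hi hrow (w := fun x => max (qd b j p x - R ^ 2) 0 ^ 2)
    (int_of_cont (by fun_prop)) fun x => ?_).trans (expAR_const hl hs hC)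
  have e0 : 0 ≤ 4 / (δ * l ^ 2) * Real.exp (-2) * Real.exp (-(l * R ^ 2))
      * (Real.exp (l * qd b j p x) * max (qd b j p x - s0) 0) :=
    mul_nonneg hK (mul_nonneg (Real.exp_pos _).le (le_max_right _ _))
  rcases le_total (qd b j p x) (R ^ 2) with hc | hc
  · rw [max_eq_right (a := qd b j p x - R ^ 2) (by linarith)]
    simpa using e0
  · rw [max_eq_left (a := qd b j p x - R ^ 2) (by linarith),
      max_eq_left (a := qd b j p x - s0) (by linarith)]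
    set y := qd b j p x - R ^ 2 with hy
    have hy0 : 0 ≤ y := by linarith
    have h1 := sq_le_expR (u := l * y / 2) (by positivity)
    have h2 : y ^ 2 ≤ 4 / l ^ 2 * (Real.exp (-2) * Real.exp (l * y)) := by
      have e1 : y ^ 2 = 4 / l ^ 2 * (l * y / 2) ^ 2 := by
        field_simp
        ring
      rw [e1]
      refine mul_le_mul_of_nonneg_left (h1.trans (le_of_eq ?_)) (by positivity)
      congr 2
      ring
    have h3 : Real.exp (l * y) = Real.exp (-(l * R ^ 2)) * Real.exp (l * qd b j p x) := by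
      rw [← Real.exp_add, hy]
      congr 1
      ring
    have h4 : δ ≤ qd b j p x - s0 := by linarith
    calc y ^ 2 ≤ 4 / l ^ 2 * (Real.exp (-2) * Real.exp (l * y)) := h2
      _ = 4 / (δ * l ^ 2) * Real.exp (-2) * Real.exp (-(l * R ^ 2))
          * (Real.exp (l * qd b j p x) * δ) := by
          rw [h3]
          field_simp
      _ ≤ _ := mul_le_mul_of_nonneg_left
          (mul_le_mul_of_nonneg_left h4 (Real.exp_pos _).le) hK

variable [DecidableEq ι]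

theorem q2_opt (h : OneP μ m p n) (b : OrthonormalBasis ι ℝ E) {j : ι → ℝ}
    (hT : T0Data μ m (cob b p) (cob b n))
    (hL : LSq μ (Matrix.diagonal j) (cob b p) (cob b n)) {ν R : ℝ} (hν0 : 0 < ν)
    (hν : ∀ a, m2 μ (cob b n) (cob b n) a a ≤ ν) (hR : 1 < R) (hνR : 3 * ν ≤ 1 - 1 / R) :
    ∫ x, max (qd b j p x - R ^ 2) 0 ^ 2 ∂μ
      ≤ 4 / (R * (R - 1)) / (((1 - 1 / R) / ν - 1) / 2) ^ 3
        * Real.exp (-((R - 1) ^ 2 / (2 * ν)) + (R * (R - 1) / 2 - 3)) := by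
  have := hT.prob
  have hR0 : 0 < R := by linarith
  have hRi : 1 / R < 1 := by rw [div_lt_one hR0]; exact hR
  have hRi0 : 0 < 1 / R := by positivity
  set l := ((1 - 1 / R) / ν - 1) / 2 with hl
  have hl1 : 1 ≤ l := by
    have : 3 ≤ (1 - 1 / R) / ν := by rw [le_div_iff₀ hν0]; exact hνR
    linarith
  have l0 : 0 < l := by linarith
  have e1 : (2 * l + 1) * ν = 1 - 1 / R := by
    rw [hl]
    field_simp
    ring
  have hν1 : ν < 1 := by nlinarith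
  have h1ν : 0 < 1 - ν := by linarith
  obtain ⟨hj, hS⟩ := jj_bounds b hT hL hν1 hν
  have e2 : 1 - 2 * l * (ν / (1 - ν)) = (1 - (2 * l + 1) * ν) / (1 - ν) := by
    field_simp
    ring
  have hp : 0 < 1 - (2 * l + 1) * ν := by linarith
  have hlk : 2 * l * (ν / (1 - ν)) < 1 := by
    have : 0 < 1 - 2 * l * (ν / (1 - ν)) := by
      rw [e2]
      exact div_pos hp h1ν
    linarith
  have h0 : 0 < R * (R - 1) := mul_pos hR0 (by linarith)
  have hs' : 1 / (1 - ν) / (1 - 2 * l * (ν / (1 - ν))) + R * (R - 1) ≤ R ^ 2 := by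
    rw [e2, div_div_div_cancel_right₀ h1ν.ne', e1]
    apply le_of_eq
    field_simp
    ring
  have h1 := q2_diag h b hj hS hl1 hlk h0 hs'
  refine h1.trans (le_of_eq ?_)
  have e3 : l * (R * (R - 1)) = (R - 1) ^ 2 / (2 * ν) - R * (R - 1) / 2 := by
    rw [hl]
    field_simp
  have e4 : 4 / (R * (R - 1) * l ^ 2) / l = 4 / (R * (R - 1)) / l ^ 3 := by
    field_simp
  rw [e3, e4]
  congr 2
  ring

/-- the correction of the finite dimension -/
def cc (ν : ℝ) : ℝ := ν / (1 - ν) * (1 + 9 / 2 / (1 + 2 * (ν / (1 - ν))))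

omit [Fintype ι] [DecidableEq ι] in
/-- the two conditions on the correction -/
lemma kc_cond {k0 k1 M : ℝ} (h0 : 0 < k0) (h01 : k0 ≤ k1) (hk : k1 ≤ 1 / 3) (hM : 0 ≤ M) :
    9 / 8 * (k0 * (M + 1)) ≤ k1 * (9 / 2 / (1 + 2 * k1)) * ((M + 2) / 2)
    ∧ 9 / 4 * (k0 * (M + 1))
      ≤ k1 * (9 / 2 / (1 + 2 * k1)) * ((M + 2) / 2 + k0 * (M + 1))
    ∧ k0 * (M + 1) / (M + 2) ≤ k1 := by
  have hk1p : 0 < k1 := by linarith
  have hm1 : 0 < M + 1 := by linarith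
  set kc : ℝ := k1 * (9 / 2 / (1 + 2 * k1)) with hkc
  have hkc0 : 0 ≤ kc := by positivity
  have hkc1 : 9 / 4 * k1 ≤ kc := by
    rw [hkc]
    have : 9 / 4 ≤ 9 / 2 / (1 + 2 * k1) := by
      rw [le_div_iff₀ (by positivity)]
      linarith
    nlinarith
  have e : kc * (1 / 2 + k1) = 9 / 4 * k1 := by
    rw [hkc]
    field_simp
    ring
  refine ⟨?_, ?_, ?_⟩
  · have a1 : k0 * (M + 1) ≤ k1 * (M + 1) := mul_le_mul_of_nonneg_right h01 hm1.le
    have a2 : 9 / 4 * k1 * ((M + 2) / 2) ≤ kc * ((M + 2) / 2) :=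
      mul_le_mul_of_nonneg_right hkc1 (by positivity)
    nlinarith
  · have a1 : kc * ((M + 1) * (1 / 2 + k0)) ≤ kc * ((M + 2) / 2 + k0 * (M + 1)) :=
      mul_le_mul_of_nonneg_left (by nlinarith) hkc0
    have a2 : 9 / 4 * k0 ≤ kc * (1 / 2 + k0) := by
      have a3 : 9 / 4 * k0 * (1 / 2 + k1) ≤ kc * (1 / 2 + k0) * (1 / 2 + k1) := by
        have : kc * (1 / 2 + k0) * (1 / 2 + k1) = 9 / 4 * k1 * (1 / 2 + k0) := by
          rw [← e]; ring
        rw [this]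
        nlinarith
      exact le_of_mul_le_mul_right a3 (by positivity)
    have a4 := mul_le_mul_of_nonneg_right a2 hm1.le
    nlinarith
  · rw [div_le_iff₀ (by linarith)]
    nlinarith

/-- the excess of the radius, scale-free -/
theorem q3_le (h : OneP μ m p n) (b : OrthonormalBasis ι ℝ E) {j : ι → ℝ}
    (hT : T0Data μ m (cob b p) (cob b n))
    (hL : LSq μ (Matrix.diagonal j) (cob b p) (cob b n)) {ν ν1 R cf A : ℝ}
    (hν0 : 0 < ν) (hν : ∀ a, m2 μ (cob b n) (cob b n) a a ≤ ν) (h1 : ν ≤ ν1)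
    (hR : 1 < R) (h3 : 3 * ν1 ≤ 1 - 1 / R)
    (hc : ν ^ 3 ≤ cf * hh μ (Matrix.diagonal j) (cob b p) (cob b n))
    (hA : 4 / (R * (R - 1)) / (((1 - 1 / R) / ν1 - 1) / 2) ^ 3
      * Real.exp (-((R - 1) ^ 2 / (2 * ν1)) + (R * (R - 1) / 2 - 3)) ≤ A) :
    0 ≤ A ∧ ∫ ω, max (qj j (cob b p) ω - (R ^ 2 - 1)) 0 ^ 2 ∂μ
      ≤ A * (cf * hh μ (diagonal j) (cob b p) (cob b n) / ν1 ^ 3) := by
  have hν1' : 0 < ν1 := hν0.trans_le h1
  have hR0 : 0 < R := by linarith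
  have hνR : 3 * ν ≤ 1 - 1 / R := by linarith
  have q1 := q2_opt h b hT hL hν0 hν hR hνR
  have hRR : 0 < R * (R - 1) := mul_pos hR0 (by linarith)
  have q2 := tail_pow (C := 4 / (R * (R - 1))) (R := R) (δ := R * (R - 1) / 2 - 3) 3 0
    (by positivity) hν0 h1 h3 (by simp; positivity)
  have hr3 : (ν / ν1) ^ 3 ≤ cf * hh μ (diagonal j) (cob b p) (cob b n) / ν1 ^ 3 := by
    rw [div_pow]
    exact div_le_div_of_nonneg_right hc (by positivity)
  have hA0 : 0 ≤ A := by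
    refine le_trans ?_ hA
    have : 0 < ((1 - 1 / R) / ν1 - 1) / 2 := by
      have : 3 ≤ (1 - 1 / R) / ν1 := by rw [le_div_iff₀ hν1']; exact h3
      linarith
    positivity
  refine ⟨hA0, ?_⟩
  have e : ∀ ω, max (qj j (cob b p) ω - (R ^ 2 - 1)) 0 ^ 2 = max (qd b j p ω - R ^ 2) 0 ^ 2 := by
    intro ω
    congr 2
    unfold qj qd
    have : ∑ a, j a ^ 2 * cob b p a ω ^ 2 = ∑ a, j a ^ 2 * ⟪p ω, b a⟫ ^ 2 := rfl
    rw [this]
    ring
  simp only [e]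
  refine q1.trans (q2.trans ?_)
  refine mul_le_mul hA ?_ (by positivity) hA0
  simpa using hr3

/-- the final comparison of the constants -/
lemma fin_cmp {c C Q t β A B X H LHS b1 : ℝ} (hc0 : 0 ≤ c) (hcC : c ≤ C) (hQ : 0 ≤ Q)
    (hβ : 0 < β) (hA : 0 ≤ A) (hX : 0 ≤ X) (hH : 0 ≤ H) (hb : b1 ≤ B * X)
    (h : LHS ≤ (3 / 2 + c + (1 / 4 + c / 2) * Q + t) * H
      + 3 * (1 / 4 + c / 2) ^ 2 / (2 * β) * (A * X) + b1) :
    LHS ≤ (3 / 2 + C + (1 / 4 + C / 2) * Q + t) * H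
      + (3 * (1 / 4 + C / 2) ^ 2 / (2 * β) * A + B) * X := by
  have b2 : 3 / 2 + c + (1 / 4 + c / 2) * Q + t ≤ 3 / 2 + C + (1 / 4 + C / 2) * Q + t := by
    have := mul_le_mul_of_nonneg_right (by linarith : 1 / 4 + c / 2 ≤ 1 / 4 + C / 2) hQ
    linarith
  have b3 := mul_le_mul_of_nonneg_right b2 hH
  have b5 : (1 / 4 + c / 2) ^ 2 ≤ (1 / 4 + C / 2) ^ 2 :=
    pow_le_pow_left₀ (by positivity) (by linarith) 2
  have b4 : 3 * (1 / 4 + c / 2) ^ 2 / (2 * β) * (A * X)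
      ≤ 3 * (1 / 4 + C / 2) ^ 2 / (2 * β) * (A * X) := by
    refine mul_le_mul_of_nonneg_right ?_ (mul_nonneg hA hX)
    refine div_le_div_of_nonneg_right ?_ (by positivity)
    linarith
  have e : (3 * (1 / 4 + C / 2) ^ 2 / (2 * β) * A + B) * X
      = 3 * (1 / 4 + C / 2) ^ 2 / (2 * β) * (A * X) + B * X := by ring
  rw [e]
  linarith

/-- **The mean normal law, closed form**, with any bound of the excess of the radius. -/
theorem cq_core (h : OneP μ m p n) (hm : 0 < m) (b : OrthonormalBasis ι ℝ E) {j : ι → ℝ}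
    (hT : T0Data μ m (cob b p) (cob b n))
    (hL : LSq μ (Matrix.diagonal j) (cob b p) (cob b n)) {ν ν1 Q cf t β A B L : ℝ} {K : ℕ}
    (hν0 : 0 < ν) (hν : ∀ a, m2 μ (cob b n) (cob b n) a a ≤ ν) (h1 : ν ≤ ν1) (hν1 : ν1 ≤ 1 / 4)
    (hQ : 0 ≤ Q) (hc : ν ^ 3 ≤ cf * hh μ (Matrix.diagonal j) (cob b p) (cob b n))
    (hK : 2 ≤ K) (ht : 0 < t) (hβ : 0 < β) (hβ1 : β < 1) (hA0 : 0 ≤ A)
    (hA : ∫ ω, max (qj j (cob b p) ω - Q) 0 ^ 2 ∂μ
      ≤ A * (cf * hh μ (diagonal j) (cob b p) (cob b n) / ν1 ^ 3))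
    (hB : cR K t / (1 - β) * ((4 * (ν1 / (1 - ν1))) ^ (K + 1) * df (K + 1)) ≤ B)
    (hL8 : ∀ a, L ≤ L8 m j a) :
    L * √(uu μ (cob b n))
      ≤ (3 / 2 + cc ν1 + (1 / 4 + cc ν1 / 2) * Q + t
          + (3 * (1 / 4 + cc ν1 / 2) ^ 2 / (2 * β) * A + B) * (cf / ν1 ^ 3))
        * hh μ (diagonal j) (cob b p) (cob b n) := by
  have := hT.prob
  have hν1' : 0 < ν1 := hν0.trans_le h1
  have hβ2 : 0 < 1 - β := by linarith
  have hq : ν < 1 := by linarith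
  have h1ν : 0 < 1 - ν := by linarith
  have h1ν1 : 0 < 1 - ν1 := by linarith
  have hm0 : (0 : ℝ) ≤ m := Nat.cast_nonneg m
  have hm1 : (0 : ℝ) < (m : ℝ) + 1 := by positivity
  have hhn : 0 ≤ hh μ (diagonal j) (cob b p) (cob b n) := hT.hh_nonneg _
  obtain ⟨hj, -⟩ := jj_bounds b hT hL hq hν
  set k0 : ℝ := ν / (1 - ν) with hk0
  set k1 : ℝ := ν1 / (1 - ν1) with hk1
  have hk0p : 0 < k0 := by positivity
  have hk1p : 0 < k1 := by positivity
  have hr1 : ν / ν1 ≤ 1 := by rw [div_le_one hν1']; exact h1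
  have hr0 : 0 < ν / ν1 := by positivity
  have hk01 : k0 ≤ k1 * (ν / ν1) := by
    rw [hk0, hk1, div_mul_div_comm, div_le_div_iff₀ h1ν (by positivity)]
    have : ν * (ν1 * (1 - ν1)) ≤ ν * (ν1 * (1 - ν)) :=
      mul_le_mul_of_nonneg_left (mul_le_mul_of_nonneg_left (by linarith) hν1'.le) hν0.le
    nlinarith
  have hk01' : k0 ≤ k1 := hk01.trans (by nlinarith)
  have hk1h : k1 ≤ 1 / 3 := by
    rw [hk1, div_le_iff₀ h1ν1]
    linarith
  obtain ⟨c1, c2, c3⟩ := kc_cond hk0p hk01' hk1h hm0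
  have hρ2 : √(k0 * ((m : ℝ) + 1)) ^ 2 = k0 * (m + 1) := Real.sq_sqrt (by positivity)
  rw [← hρ2] at c1 c2 c3
  have hρ : 0 < √(k0 * ((m : ℝ) + 1)) := Real.sqrt_pos.2 (by positivity)
  have hρm : √(k0 * ((m : ℝ) + 1)) ^ 2 ≤ ((m : ℝ) + 2) / 2 := by
    rw [hρ2]
    nlinarith
  have hja : ∀ a, |j a| ≤ √(k0 * ((m : ℝ) + 1)) := by
    intro a
    rw [← Real.sqrt_sq_eq_abs]
    exact Real.sqrt_le_sqrt (hj a)
  have hcR := cR_nonneg K t
  have hdf := df_nonneg (K + 1)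
  have hK1 : 1 ≤ K := by omega
  have main := el_cq_uni h b hT hm hL8 hρ hρm (by positivity) c1 c2 hja hK1 ht hβ hβ1
    hQ (kap := k0) hρ2.le hA
  have hX : (ν / ν1) ^ 3 ≤ cf * hh μ (diagonal j) (cob b p) (cob b n) / ν1 ^ 3 := by
    rw [div_pow]
    exact div_le_div_of_nonneg_right hc (by positivity)
  have hX0 : 0 ≤ cf * hh μ (diagonal j) (cob b p) (cob b n) / ν1 ^ 3 :=
    le_trans (by positivity) hX
  have b1 : cR K t / (1 - β) * ((4 * k0) ^ (K + 1) * df (K + 1))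
      ≤ B * (cf * hh μ (diagonal j) (cob b p) (cob b n) / ν1 ^ 3) := by
    have a1 : (4 * k0) ^ (K + 1) ≤ (4 * k1) ^ (K + 1) * (ν / ν1) ^ 3 := by
      have a2 : (4 * k0) ^ (K + 1) ≤ (4 * (k1 * (ν / ν1))) ^ (K + 1) :=
        pow_le_pow_left₀ (by positivity) (by linarith) _
      refine a2.trans ?_
      rw [← mul_assoc, mul_pow]
      refine mul_le_mul_of_nonneg_left ?_ (by positivity)
      exact pow_le_pow_of_le_one hr0.le hr1 (show 3 ≤ K + 1 by omega)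
    have a3 : cR K t / (1 - β) * ((4 * k0) ^ (K + 1) * df (K + 1))
        ≤ cR K t / (1 - β) * (((4 * k1) ^ (K + 1) * (ν / ν1) ^ 3) * df (K + 1)) :=
      mul_le_mul_of_nonneg_left (mul_le_mul_of_nonneg_right a1 hdf) (by positivity)
    have a4 : cR K t / (1 - β) * (((4 * k1) ^ (K + 1) * (ν / ν1) ^ 3) * df (K + 1))
        = cR K t / (1 - β) * ((4 * k1) ^ (K + 1) * df (K + 1)) * (ν / ν1) ^ 3 := by ring
    rw [a4] at a3
    have hB0 : 0 ≤ B := le_trans (by positivity) hB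
    exact a3.trans (mul_le_mul hB hX (by positivity) hB0)
  have hcc : √(k0 * ((m : ℝ) + 1)) ^ 2 / (m + 2) + k1 * (9 / 2 / (1 + 2 * k1)) ≤ cc ν1 := by
    have e : cc ν1 = k1 + k1 * (9 / 2 / (1 + 2 * k1)) := by
      unfold cc
      rw [← hk1]
      ring
    rw [e]
    linarith
  have f := fin_cmp (by positivity) hcc hQ hβ hA0 hX0 hhn b1 main
  refine f.trans (le_of_eq ?_)
  have e6 : cf * hh μ (diagonal j) (cob b p) (cob b n) / ν1 ^ 3
      = cf / ν1 ^ 3 * hh μ (diagonal j) (cob b p) (cob b n) := by ring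
  rw [e6]
  ring

/-- **The mean normal law, closed form.** -/
theorem cq_closed (h : OneP μ m p n) (hm : 0 < m) (b : OrthonormalBasis ι ℝ E) {j : ι → ℝ}
    (hT : T0Data μ m (cob b p) (cob b n))
    (hL : LSq μ (Matrix.diagonal j) (cob b p) (cob b n)) {ν ν1 R cf t β A B L : ℝ} {K : ℕ}
    (hν0 : 0 < ν) (hν : ∀ a, m2 μ (cob b n) (cob b n) a a ≤ ν) (h1 : ν ≤ ν1) (hν1 : ν1 ≤ 1 / 4)
    (hR : 1 < R) (h3 : 3 * ν1 ≤ 1 - 1 / R)
    (hc : ν ^ 3 ≤ cf * hh μ (Matrix.diagonal j) (cob b p) (cob b n))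
    (hK : 2 ≤ K) (ht : 0 < t) (hβ : 0 < β) (hβ1 : β < 1)
    (hA : 4 / (R * (R - 1)) / (((1 - 1 / R) / ν1 - 1) / 2) ^ 3
      * Real.exp (-((R - 1) ^ 2 / (2 * ν1)) + (R * (R - 1) / 2 - 3)) ≤ A)
    (hB : cR K t / (1 - β) * ((4 * (ν1 / (1 - ν1))) ^ (K + 1) * df (K + 1)) ≤ B)
    (hL8 : ∀ a, L ≤ L8 m j a) :
    L * √(uu μ (cob b n))
      ≤ (3 / 2 + cc ν1 + (1 / 4 + cc ν1 / 2) * (R ^ 2 - 1) + t
          + (3 * (1 / 4 + cc ν1 / 2) ^ 2 / (2 * β) * A + B) * (cf / ν1 ^ 3))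
        * hh μ (diagonal j) (cob b p) (cob b n) := by
  obtain ⟨hA0, q3⟩ := q3_le h b hT hL hν0 hν h1 hR h3 hc hA
  exact cq_core h hm b hT hL hν0 hν h1 hν1 (by nlinarith) hc hK ht hβ hβ1 hA0 q3 hB hL8

end

end

end Vale.Agent.P224.R2.H679
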