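import Vale.Agent.P224.R2.H679.PW7
import Vale.Agent.P224.R2.H590.ElKB

/-!
The pointwise bound of the integrand of the mean normal law: radius term, cross term and
linear term.
-/

namespace Vale.Agent.P224.R2.H679

open MeasureTheory Matrix Finset Real
open Vale.Agent.P224.R2.H728 Vale.Agent.P224.R2.H579 Vale.Agent.P224.R2.H590

section pure

variable {ι : Type*} [Fintype ι]

/-- the entries of the fourth order part -/
lemma ent_le {H ρ i a : ℝ} (hH : ρ ^ 2 ≤ H) (hH0 : 0 < H) (hi : |i| ≤ ρ) (ha : |a| ≤ ρ) :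
    |(i - a) * (3 * i + a)| / (H + i ^ 2) ≤ 4 * ρ ^ 2 / (H + ρ ^ 2) := by
  have hρ : 0 ≤ ρ := (abs_nonneg _).trans hi
  have hi2 : i ^ 2 ≤ ρ ^ 2 := sq_le_sq' (abs_le.1 hi).1 (abs_le.1 hi).2
  have ha2 : a ^ 2 ≤ ρ ^ 2 := sq_le_sq' (abs_le.1 ha).1 (abs_le.1 ha).2
  rw [div_le_div_iff₀ (by positivity) (by positivity)]
  have up : |(i - a) * (3 * i + a)| ≤ max (4 * i ^ 2) (4 / 3 * ρ ^ 2) := by
    rw [abs_le]
    constructor
    · have h1 : -(4 / 3 * ρ ^ 2) ≤ (i - a) * (3 * i + a) := by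
        have e : (i - a) * (3 * i + a) = 3 * (i - a / 3) ^ 2 - 4 / 3 * a ^ 2 := by ring
        rw [e]
        nlinarith [sq_nonneg (i - a / 3)]
      have h2 := le_max_right (4 * i ^ 2) (4 / 3 * ρ ^ 2)
      linarith
    · have h1 : (i - a) * (3 * i + a) ≤ 4 * i ^ 2 := by nlinarith [sq_nonneg (i + a)]
      exact h1.trans (le_max_left _ _)
  have h0 : 0 ≤ H + ρ ^ 2 := by positivity
  refine (mul_le_mul_of_nonneg_right up h0).trans ?_
  have p1 : ρ ^ 2 * ρ ^ 2 ≤ ρ ^ 2 * H := mul_le_mul_of_nonneg_left hH (sq_nonneg ρ)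
  have p2 : 0 ≤ ρ ^ 2 * i ^ 2 := by positivity
  have p3 : 0 ≤ ρ ^ 2 * H := by positivity
  have p4 : i ^ 2 * H ≤ ρ ^ 2 * H := mul_le_mul_of_nonneg_right hi2 hH0.le
  rcases le_total (4 * i ^ 2) (4 / 3 * ρ ^ 2) with hc | hc
  · rw [max_eq_right hc]
    nlinarith
  · rw [max_eq_left hc]
    nlinarith

/-- the decomposition of the integrand -/
lemma dec8 {x N v j : ι → ℝ} {m : ℝ} (hm : 0 < m) (hN : ∑ i, N i ^ 2 = 1) :
    ∑ a, v a * G8 m j x N a
      = (∑ a, j a ^ 2 * x a ^ 2 - 1) * (∑ a, v a * (N a - j a * x a))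
        + 1 / 2 * ((∑ i, (N i - j i * x i) * ((N i - j i * x i) / ((m + 2) / 2 + j i ^ 2)))
              * (∑ a, j a * x a * (((m + 2) / 2 + j a ^ 2) * v a))
            - (∑ i, j i * x i * ((N i - j i * x i) / ((m + 2) / 2 + j i ^ 2)))
              * (∑ a, (N a - j a * x a) * (((m + 2) / 2 + j a ^ 2) * v a))
            - (∑ i, j i * x i * (N i - j i * x i))
              * (∑ a, (N a - j a * x a) / ((m + 2) / 2 + j a ^ 2)
                  * (((m + 2) / 2 + j a ^ 2) * v a)))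
        + (∑ i, j i / ((m + 2) / 2 + j i ^ 2) * ((N i - j i * x i) * (N i - j i * x i)))
            * (∑ a, x a * (((m + 2) / 2 + j a ^ 2) * v a))
        + 1 / 2 * ∑ a, ∑ i, (v a * (N a - j a * x a)) * (j i * x i * (N i - j i * x i))
            * ((j i - j a) * (3 * j i + j a) / ((m + 2) / 2 + j i ^ 2)) := by
  set H : ℝ := (m + 2) / 2 with hHdef
  have hH0 : 0 < H := by positivity
  have hθ : ∀ i, H + j i ^ 2 ≠ 0 := fun i => by positivity
  set z : ι → ℝ := fun i => N i - j i * x i with hz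
  have hz' : ∀ i, N i - j i * x i = z i := fun i => rfl
  have hcon : (∑ a, j a ^ 2 * x a ^ 2 - 1) = -(∑ b, z b ^ 2) - 2 * ∑ b, j b * x b * z b := by
    have e : ∑ i, N i ^ 2 = (∑ b, z b ^ 2) + 2 * (∑ b, j b * x b * z b)
        + ∑ a, j a ^ 2 * x a ^ 2 := by
      rw [mul_sum, ← sum_add_distrib, ← sum_add_distrib]
      exact sum_congr rfl fun i _ => by rw [← hz' i]; ring
    rw [hN] at e
    linarith
  have r1 : ∀ a, v a * G8 m j x N a
      = -(∑ b, z b ^ 2) * (v a * z a) - 2 * (∑ b, j b * x b * z b) * (v a * z a)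
        + (1 / 2 * ((∑ i, z i * (z i / (H + j i ^ 2))) * (j a * x a * ((H + j a ^ 2) * v a))
            - (∑ i, j i * x i * (z i / (H + j i ^ 2))) * (z a * ((H + j a ^ 2) * v a))
            - (∑ i, j i * x i * z i) * (z a / (H + j a ^ 2) * ((H + j a ^ 2) * v a)))
          + (∑ i, j i / (H + j i ^ 2) * (z i * z i)) * (x a * ((H + j a ^ 2) * v a))
          + 1 / 2 * ∑ i, (v a * z a) * (j i * x i * z i)
            * ((j i - j a) * (3 * j i + j a) / (H + j i ^ 2))) := by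
    intro a
    have e1 : v a * (x a * ∑ b, (H + j a ^ 2) * (j b + j a / 2) / (H + j b ^ 2) * z b ^ 2)
          + -(v a * (z a * ∑ b, j b * (3 * H + j a ^ 2 + j a * j b + j b ^ 2) / (H + j b ^ 2)
            * (z b * x b)))
        = -(2 * (∑ b, j b * x b * z b) * (v a * z a))
          + ∑ i, (1 / 2 * (z i * (z i / (H + j i ^ 2)) * (j a * x a * ((H + j a ^ 2) * v a))
            - j i * x i * (z i / (H + j i ^ 2)) * (z a * ((H + j a ^ 2) * v a))
            - j i * x i * z i * (z a / (H + j a ^ 2) * ((H + j a ^ 2) * v a)))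
          + j i / (H + j i ^ 2) * (z i * z i) * (x a * ((H + j a ^ 2) * v a))
          + 1 / 2 * ((v a * z a) * (j i * x i * z i)
            * ((j i - j a) * (3 * j i + j a) / (H + j i ^ 2)))) := by
      simp only [mul_sum, sum_mul, ← sum_neg_distrib, ← sum_add_distrib]
      refine sum_congr rfl fun i _ => ?_
      have h1 := hθ i
      have h2 := hθ a
      field_simp
      ring
    have e2 : ∑ i, (1 / 2 * (z i * (z i / (H + j i ^ 2)) * (j a * x a * ((H + j a ^ 2) * v a))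
            - j i * x i * (z i / (H + j i ^ 2)) * (z a * ((H + j a ^ 2) * v a))
            - j i * x i * z i * (z a / (H + j a ^ 2) * ((H + j a ^ 2) * v a)))
          + j i / (H + j i ^ 2) * (z i * z i) * (x a * ((H + j a ^ 2) * v a))
          + 1 / 2 * ((v a * z a) * (j i * x i * z i)
            * ((j i - j a) * (3 * j i + j a) / (H + j i ^ 2))))
        = (1 / 2 * ((∑ i, z i * (z i / (H + j i ^ 2))) * (j a * x a * ((H + j a ^ 2) * v a))
            - (∑ i, j i * x i * (z i / (H + j i ^ 2))) * (z a * ((H + j a ^ 2) * v a))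
            - (∑ i, j i * x i * z i) * (z a / (H + j a ^ 2) * ((H + j a ^ 2) * v a)))
          + (∑ i, j i / (H + j i ^ 2) * (z i * z i)) * (x a * ((H + j a ^ 2) * v a))
          + 1 / 2 * ∑ i, (v a * z a) * (j i * x i * z i)
            * ((j i - j a) * (3 * j i + j a) / (H + j i ^ 2))) := by
      rw [sum_add_distrib, sum_add_distrib, ← mul_sum, ← mul_sum, ← sum_mul, sum_sub_distrib,
        sum_sub_distrib, ← sum_mul, ← sum_mul, ← sum_mul]
    rw [e2] at e1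
    have e3 : v a * G8 m j x N a = -(∑ b, z b ^ 2) * (v a * z a)
        + (v a * (x a * ∑ b, (H + j a ^ 2) * (j b + j a / 2) / (H + j b ^ 2) * z b ^ 2)
          + -(v a * (z a * ∑ b, j b * (3 * H + j a ^ 2 + j a * j b + j b ^ 2) / (H + j b ^ 2)
            * (z b * x b)))) := by
      unfold G8
      simp only [← hHdef, hz']
      ring
    rw [e3, e1]
    ring
  rw [sum_congr rfl fun a _ => r1 a]
  rw [hcon]
  simp only [hz']
  rw [sum_add_distrib, sum_add_distrib, sum_add_distrib, sum_sub_distrib, ← mul_sum, ← mul_sum,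
    ← mul_sum, ← mul_sum, ← mul_sum, sum_sub_distrib, sum_sub_distrib, ← mul_sum, ← mul_sum,
    ← mul_sum]
  ring

/-- Cauchy with absolute values -/
lemma sum_abs_le (p q : ι → ℝ) : ∑ i, |p i * q i| ≤ √(∑ i, p i ^ 2) * √(∑ i, q i ^ 2) := by
  have h := Real.sum_mul_le_sqrt_mul_sqrt univ (fun i => |p i|) (fun i => |q i|)
  simpa only [abs_mul, sq_abs] using h

/-- **The pointwise bound.** -/
theorem hp8 {x N v j : ι → ℝ} {m ρ : ℝ} (hm : 0 < m) (hρ : 0 < ρ) (hH : ρ ^ 2 ≤ (m + 2) / 2)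
    (hN : ∑ i, N i ^ 2 = 1) (hv : ∑ i, v i ^ 2 = 1) (hj : ∀ i, |j i| ≤ ρ) :
    ∑ a, v a * G8 m j x N a
      ≤ (∑ a, j a ^ 2 * x a ^ 2 - 1) * (∑ a, v a * (N a - j a * x a))
        + (1 / 2 * (1 + ρ ^ 2 / ((m + 2) / 2)) + 2 * ρ ^ 2 / ((m + 2) / 2 + ρ ^ 2))
          * (√(∑ a, j a ^ 2 * x a ^ 2) * ∑ b, (N b - j b * x b) * (N b - j b * x b))
        + ρ * (|∑ a, ((m + 2) / 2 + j a ^ 2) / ((m + 2) / 2 + ρ ^ 2) * v a * x a|
          * ∑ b, (N b - j b * x b) * (N b - j b * x b)) := by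
  rw [dec8 hm hN]
  set H : ℝ := (m + 2) / 2 with hHdef
  have hH0 : 0 < H := by positivity
  have hθ : ∀ i, 0 < H + j i ^ 2 := fun i => by positivity
  have hj2 : ∀ i, j i ^ 2 ≤ ρ ^ 2 := fun i => sq_le_sq' (abs_le.1 (hj i)).1 (abs_le.1 (hj i)).2
  set z : ι → ℝ := fun i => N i - j i * x i with hz
  have hz' : ∀ i, N i - j i * x i = z i := fun i => rfl
  simp only [hz']
  set S : ℝ := ∑ b, z b * z b with hS
  have hS2 : ∑ b, z b ^ 2 = S := sum_congr rfl fun b _ => by ring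
  have hS0 : 0 ≤ S := sum_nonneg fun b _ => mul_self_nonneg _
  have hSS : √S * √S = S := Real.mul_self_sqrt hS0
  set r : ℝ := √(∑ a, j a ^ 2 * x a ^ 2) with hr
  have hr0 : 0 ≤ r := Real.sqrt_nonneg _
  have hr2 : √(∑ i, (j i * x i) ^ 2) = r := by
    rw [hr]; congr 1; exact sum_congr rfl fun i _ => by ring
  -- first part
  have b1 := (le_abs_self _).trans (four_sum (fun i => j i * x i) z
    (fun i => z i / (H + j i ^ 2)) (fun i => (H + j i ^ 2) * v i))
  rw [hr2, hS2] at b1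
  have hen : √(∑ i, (z i / (H + j i ^ 2)) ^ 2) ≤ √S / H := by
    rw [show √S / H = √(S / H ^ 2) by
      rw [Real.sqrt_div hS0, Real.sqrt_sq hH0.le]]
    apply Real.sqrt_le_sqrt
    rw [← hS2, sum_div]
    refine sum_le_sum fun i _ => ?_
    rw [div_pow]
    apply div_le_div_of_nonneg_left (sq_nonneg _) (by positivity)
    exact pow_le_pow_left₀ hH0.le (by linarith [sq_nonneg (j i)]) 2
  have hVn : √(∑ i, ((H + j i ^ 2) * v i) ^ 2) ≤ H + ρ ^ 2 := by
    rw [show H + ρ ^ 2 = √((H + ρ ^ 2) ^ 2 * ∑ i, v i ^ 2) by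
      rw [hv, mul_one, Real.sqrt_sq (by positivity)]]
    apply Real.sqrt_le_sqrt
    rw [mul_sum]
    refine sum_le_sum fun i _ => ?_
    rw [mul_pow]
    apply mul_le_mul_of_nonneg_right _ (sq_nonneg _)
    exact pow_le_pow_left₀ (hθ i).le (by linarith [hj2 i]) 2
  have hsS : 0 ≤ √S := Real.sqrt_nonneg _
  have c1 : r * √S * √(∑ i, (z i / (H + j i ^ 2)) ^ 2) * √(∑ i, ((H + j i ^ 2) * v i) ^ 2)
      ≤ (1 + ρ ^ 2 / H) * (r * S) := by
    calc r * √S * √(∑ i, (z i / (H + j i ^ 2)) ^ 2) * √(∑ i, ((H + j i ^ 2) * v i) ^ 2)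
        ≤ r * √S * (√S / H) * (H + ρ ^ 2) := by
          apply mul_le_mul _ hVn (Real.sqrt_nonneg _) (by positivity)
          exact mul_le_mul_of_nonneg_left hen (by positivity)
      _ = (1 + ρ ^ 2 / H) * (r * (√S * √S)) := by
          field_simp
      _ = _ := by rw [hSS]
  have d1 := b1.trans c1
  -- linear part
  have g1 : |∑ i, j i / (H + j i ^ 2) * (z i * z i)| ≤ ρ / (H + ρ ^ 2) * S := by
    refine (abs_sum_le_sum_abs _ _).trans ?_
    rw [hS, mul_sum]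
    refine sum_le_sum fun i _ => ?_
    rw [abs_mul, abs_of_nonneg (mul_self_nonneg (z i)), abs_div, abs_of_pos (hθ i)]
    apply mul_le_mul_of_nonneg_right _ (mul_self_nonneg _)
    rw [div_le_div_iff₀ (hθ i) (by positivity)]
    have h1 : 0 ≤ (ρ - |j i|) * (H - ρ * |j i|) := by
      apply mul_nonneg (by linarith [hj i])
      have := mul_le_mul_of_nonneg_left (hj i) hρ.le
      nlinarith
    have h2 : |j i| ^ 2 = j i ^ 2 := sq_abs _
    nlinarith
  have d2 : (∑ i, j i / (H + j i ^ 2) * (z i * z i)) * (∑ a, x a * ((H + j a ^ 2) * v a))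
      ≤ ρ * (|∑ a, (H + j a ^ 2) / (H + ρ ^ 2) * v a * x a| * S) := by
    have e : ∑ a, x a * ((H + j a ^ 2) * v a)
        = (H + ρ ^ 2) * ∑ a, (H + j a ^ 2) / (H + ρ ^ 2) * v a * x a := by
      rw [mul_sum]
      refine sum_congr rfl fun a _ => ?_
      have : H + ρ ^ 2 ≠ 0 := by positivity
      field_simp
    rw [e]
    refine (le_abs_self _).trans ?_
    rw [abs_mul, abs_mul, abs_of_pos (by positivity : 0 < H + ρ ^ 2)]
    calc |∑ i, j i / (H + j i ^ 2) * (z i * z i)|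
          * ((H + ρ ^ 2) * |∑ a, (H + j a ^ 2) / (H + ρ ^ 2) * v a * x a|)
        ≤ ρ / (H + ρ ^ 2) * S
          * ((H + ρ ^ 2) * |∑ a, (H + j a ^ 2) / (H + ρ ^ 2) * v a * x a|) :=
          mul_le_mul_of_nonneg_right g1 (by positivity)
      _ = _ := by
          have : H + ρ ^ 2 ≠ 0 := by positivity
          field_simp
  -- fourth order part
  have d3 : ∑ a, ∑ i, (v a * z a) * (j i * x i * z i)
      * ((j i - j a) * (3 * j i + j a) / (H + j i ^ 2)) ≤ 4 * ρ ^ 2 / (H + ρ ^ 2) * (r * S) := by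
    have h1 : ∀ a i, (v a * z a) * (j i * x i * z i)
        * ((j i - j a) * (3 * j i + j a) / (H + j i ^ 2))
        ≤ 4 * ρ ^ 2 / (H + ρ ^ 2) * (|v a * z a| * |j i * x i * z i|) := by
      intro a i
      refine (le_abs_self _).trans ?_
      rw [abs_mul, abs_mul, abs_div, abs_of_pos (hθ i), mul_comm]
      exact mul_le_mul_of_nonneg_right (ent_le hH hH0 (hj i) (hj a)) (by positivity)
    calc _ ≤ ∑ a, ∑ i, 4 * ρ ^ 2 / (H + ρ ^ 2) * (|v a * z a| * |j i * x i * z i|) :=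
          sum_le_sum fun a _ => sum_le_sum fun i _ => h1 a i
      _ = 4 * ρ ^ 2 / (H + ρ ^ 2) * ((∑ a, |v a * z a|) * ∑ i, |j i * x i * z i|) := by
          simp only [← mul_sum, ← sum_mul]
      _ ≤ 4 * ρ ^ 2 / (H + ρ ^ 2) * ((√1 * √S) * (r * √S)) := by
          apply mul_le_mul_of_nonneg_left _ (by positivity)
          have k1 := sum_abs_le v z
          have k2 := sum_abs_le (fun i => j i * x i) z
          rw [hv, hS2] at k1
          rw [hr2, hS2] at k2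
          exact mul_le_mul k1 k2 (sum_nonneg fun i _ => abs_nonneg _) (by positivity)
      _ = 4 * ρ ^ 2 / (H + ρ ^ 2) * (r * (√S * √S)) := by
          rw [Real.sqrt_one]; ring
      _ = _ := by rw [hSS]
  have e9 : 2 * ρ ^ 2 / (H + ρ ^ 2) = 1 / 2 * (4 * ρ ^ 2 / (H + ρ ^ 2)) := by ring
  rw [e9]
  nlinarith

/-- the auxiliary vector is short -/
lemma vp_le {v j : ι → ℝ} {H ρ : ℝ} (hH0 : 0 < H) (hv : ∑ i, v i ^ 2 = 1)
    (hj : ∀ i, |j i| ≤ ρ) : ∑ a, ((H + j a ^ 2) / (H + ρ ^ 2) * v a) ^ 2 ≤ 1 := by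
  rw [← hv]
  refine sum_le_sum fun i _ => ?_
  have hj2 : j i ^ 2 ≤ ρ ^ 2 := sq_le_sq' (abs_le.1 (hj i)).1 (abs_le.1 (hj i)).2
  rw [mul_pow]
  have h1 : ((H + j i ^ 2) / (H + ρ ^ 2)) ^ 2 ≤ 1 := by
    apply pow_le_one₀ (by positivity)
    rw [div_le_one (by positivity)]
    linarith
  nlinarith [sq_nonneg (v i)]

end pure

section data

variable {ι Ω : Type*} [Fintype ι] [DecidableEq ι] [MeasurableSpace Ω] {μ : Measure Ω}
  {m : ℝ} {x N : ι → Ω → ℝ} {j : ι → ℝ}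

/-- **The pointwise hypothesis of `el_core` and `el_kb`.** -/
theorem hP_data (h : T0Data μ m x N) (hm : 0 < m) {ρ : ℝ} (hρ : 0 < ρ)
    (hH : ρ ^ 2 ≤ (m + 2) / 2) (hj : ∀ i, |j i| ≤ ρ) :
    ∀ v : ι → ℝ, ∑ a, v a ^ 2 = 1 → ∃ v' : ι → ℝ, ∑ a, v' a ^ 2 ≤ 1 ∧ ∀ ω,
      ∑ a, v a * G8 m j (fun b => x b ω) (fun b => N b ω) a
        ≤ qj j x ω * (∑ a, v a * zd j x N a ω)
          + (1 / 2 * (1 + ρ ^ 2 / ((m + 2) / 2)) + 2 * ρ ^ 2 / ((m + 2) / 2 + ρ ^ 2))
            * (rr j x ω * sz j x N ω)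
          + ρ * (|∑ a, v' a * x a ω| * sz j x N ω) := fun v hv =>
  ⟨fun a => ((m + 2) / 2 + j a ^ 2) / ((m + 2) / 2 + ρ ^ 2) * v a,
    vp_le (by positivity) hv hj, fun ω =>
    hp8 (x := fun b => x b ω) (N := fun b => N b ω) hm hρ hH (h.uN ω) hv hj⟩

end data

end Vale.Agent.P224.R2.H679
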